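import Vale.Agent.P242.H446.Est2
import Vale.Agent.P242.H924.Uc
import Vale.Agent.P242.H751.SS

/-! P242, A-MAPS (helper757): the fields `gram1`, `gram`, `gam` of `H71.Cfg` from the averages of
`|Γ(u_i,u_j) - δ_ij|` and of `|∇Δu_i|²`. -/

set_option linter.all false

open MeasureTheory Filter Topology Set Metric
open scoped ENNReal NNReal InnerProductSpace

universe u

namespace Vale.Agent.P242.H757

open Vale.Agent.P233 Vale.Agent.P233.RA Vale.Agent.P242.H71 Vale.Agent.P242.H990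
  Vale.Agent.P242.H520

section alg

variable {M : Type*} [MeasurableSpace M] {m : Measure M} {C : Calc m} {n : ℕ}

theorem sum_abs_le (c : E n) : ∑ i, |c i| ≤ √n * ‖c‖ := by
  have h := Finset.sum_mul_sq_le_sq_mul_sq Finset.univ (fun _ : Fin n => (1 : ℝ)) fun i => |c i|
  simp only [one_mul, one_pow, sq_abs, Finset.sum_const, Finset.card_univ, Fintype.card_fin,
    nsmul_eq_mul, mul_one] at h
  have e : ‖c‖ ^ 2 = ∑ i, c i ^ 2 := by
    rw [EuclideanSpace.norm_sq_eq]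
    simp
  rw [← e] at h
  refine abs_le_of_sq_le_sq' ?_ (by positivity) |>.2
  rw [mul_pow, Real.sq_sqrt (Nat.cast_nonneg n)]
  exact h

/-- `|Γ(u_c,u_c') - ⟨c,c'⟩| ≤ ∑ |c_i| |c'_j| |Γ(u_i,u_j) - δ_ij|` -/
theorem Γ_uc_sub (hD : IsDir C) {u : Fin n → M →ₘ[m] ℝ} (hu : ∀ i, u i ∈ C.W) (c c' : E n) :
    ∀ᵐ z ∂m, |C.Γ (uc u c) (uc u c') z - ⟪c, c'⟫_ℝ| ≤
      ∑ i, ∑ j, |c i| * |c' j| * |C.Γ (u i) (u j) z - if i = j then 1 else 0| := by
  have h1 : ∀ i, c i • u i ∈ C.W := fun i => hD.smul_mem _ _ (hu i)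
  have h1' : ∀ i, c' i • u i ∈ C.W := fun i => hD.smul_mem _ _ (hu i)
  have e : C.Γ (uc u c) (uc u c') = ∑ i, ∑ j, C.Γ (c i • u i) (c' j • u j) := by
    unfold uc
    rw [hD.Γ_sum_left _ h1 (hD.sum_mem _ h1')]
    exact Finset.sum_congr rfl fun i _ => hD.Γ_sum_right _ h1' (h1 i)
  have h3 : ∀ᵐ x ∂m, ∀ i j, C.Γ (c i • u i) (c' j • u j) x = c i * c' j * C.Γ (u i) (u j) x := by
    refine ae_all_iff.2 fun i => ae_all_iff.2 fun j => ?_
    rw [hD.smul_left _ _ (hu i) _ (h1' j), hD.Γ_smul_right _ (hu i) (hu j), smul_smul]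
    exact smul_ae _ _
  have h4 : ∀ᵐ x ∂m, ∀ i, (∑ j, C.Γ (c i • u i) (c' j • u j)) x
      = ∑ j, C.Γ (c i • u i) (c' j • u j) x := ae_all_iff.2 fun i => H924.sum_ae' _ _
  rw [e]
  filter_upwards [H924.sum_ae' Finset.univ fun i => ∑ j, C.Γ (c i • u i) (c' j • u j), h3, h4]
    with x a1 a2 a3
  have e1 : (∑ i, ∑ j, C.Γ (c i • u i) (c' j • u j)) x
      = ∑ i, ∑ j, c i * c' j * C.Γ (u i) (u j) x := by
    rw [a1]
    refine Finset.sum_congr rfl fun i _ => ?_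
    rw [a3 i]
    exact Finset.sum_congr rfl fun j _ => a2 i j
  have e2 : ⟪c, c'⟫_ℝ = ∑ i, ∑ j, c i * c' j * (if i = j then (1 : ℝ) else 0) := by
    rw [PiLp.inner_apply]
    refine Finset.sum_congr rfl fun i _ => ?_
    simp [mul_comm]
  rw [e1, e2, ← Finset.sum_sub_distrib]
  refine (Finset.abs_sum_le_sum_abs _ _).trans (Finset.sum_le_sum fun i _ => ?_)
  rw [← Finset.sum_sub_distrib]
  refine (Finset.abs_sum_le_sum_abs _ _).trans (Finset.sum_le_sum fun j _ => ?_)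
  rw [← mul_sub, abs_mul, abs_mul]

end alg

section main

variable {M : Type u} [MetricSpace M] [CompleteSpace M] [SecondCountableTopology M]
  [MeasurableSpace M] [BorelSpace M] {m : Measure M} {n : ℕ} {K : ℝ} {o : M} {A : ℝ}
  {p : ℝ → M → M → ℝ} {u : Fin n → M →ₘ[m] ℝ} {x : M} {s ξ : ℝ}

/-- the pointwise form of `gram1` -/
theorem gram_pt (hC : IsGamma (sob m)) (hp : Ker0 m p) (hu : ∀ i, u i ∈ (sob m).Test)
    (hs : 0 < s) (hξ : 0 ≤ ξ)
    (he : ∀ i j, pt m p s (fun z => |(sob m).Γ (u i) (u j) z - if i = j then 1 else 0|) x ≤ ξ)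
    (c c' : E n) :
    pt m p s (fun z => |(sob m).Γ (uc u c) (uc u c') z - ⟪c, c'⟫_ℝ|) x ≤
      n * ξ * ‖c‖ * ‖c'‖ := by
  have hD := hC.toIsDir
  have huA : ∀ i, u i ∈ (sob m).A := fun i => hC.test_A (hu i)
  have hW : ∀ i, u i ∈ (sob m).W := fun i => (huA i).1
  have hi : ∀ i j, Integrable (fun z => p s x z *
      |(sob m).Γ (u i) (u j) z - if i = j then 1 else 0|) m := by
    intro i j
    have h1 : MemLp ((sob m).Γ (u i) (u j)) ∞ m :=
      hD.Γ_memTop (hW i) (hC.test_Γ_top (hu i)) (hW j) (hC.test_Γ_top (hu j))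
    have h2 : MemLp (fun z => (sob m).Γ (u i) (u j) z - if i = j then (1 : ℝ) else 0) ∞ m :=
      h1.sub (memLp_top_const _)
    exact pt_int_top hp hs x h2.abs
  have hi2 : Integrable (fun z => ∑ i, ∑ j, |c i| * |c' j| *
      (p s x z * |(sob m).Γ (u i) (u j) z - if i = j then 1 else 0|)) m :=
    integrable_finset_sum _ fun i _ => integrable_finset_sum _ fun j _ => (hi i j).const_mul _
  have h1 : pt m p s (fun z => |(sob m).Γ (uc u c) (uc u c') z - ⟪c, c'⟫_ℝ|) x ≤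
      ∫ z, ∑ i, ∑ j, |c i| * |c' j| *
      (p s x z * |(sob m).Γ (u i) (u j) z - if i = j then 1 else 0|) ∂m := by
    refine integral_mono_of_nonneg (Eventually.of_forall fun z =>
      mul_nonneg (hp.nonneg s hs x z) (abs_nonneg _)) hi2 ?_
    filter_upwards [Γ_uc_sub hD hW c c'] with z hz
    refine (mul_le_mul_of_nonneg_left hz (hp.nonneg s hs x z)).trans (le_of_eq ?_)
    rw [Finset.mul_sum]
    refine Finset.sum_congr rfl fun i _ => ?_
    rw [Finset.mul_sum]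
    exact Finset.sum_congr rfl fun j _ => by ring
  refine h1.trans ?_
  rw [integral_finset_sum _ fun i _ => integrable_finset_sum _ fun j _ => (hi i j).const_mul _]
  have h2 : ∑ i, ∫ z, ∑ j, |c i| * |c' j| *
      (p s x z * |(sob m).Γ (u i) (u j) z - if i = j then 1 else 0|) ∂m ≤
      ∑ i, ∑ j, |c i| * |c' j| * ξ := by
    refine Finset.sum_le_sum fun i _ => ?_
    rw [integral_finset_sum _ fun j _ => (hi i j).const_mul _]
    refine Finset.sum_le_sum fun j _ => ?_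
    rw [integral_const_mul]
    exact mul_le_mul_of_nonneg_left (he i j) (by positivity)
  refine h2.trans ?_
  have e1 : ∑ i, ∑ j, |c i| * |c' j| * ξ = (∑ i, |c i|) * (∑ j, |c' j|) * ξ := by
    rw [Finset.sum_mul_sum, Finset.sum_mul]
    exact Finset.sum_congr rfl fun i _ => (Finset.sum_mul _ _ _).symm
  rw [e1]
  have h3 := sum_abs_le c
  have h4 := sum_abs_le c'
  have h5 : 0 ≤ ∑ j, |c' j| := Finset.sum_nonneg fun _ _ => abs_nonneg _
  calc (∑ i, |c i|) * (∑ j, |c' j|) * ξ ≤ (√n * ‖c‖) * (√n * ‖c'‖) * ξ := by gcongr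
    _ = (√n * √n) * ξ * ‖c‖ * ‖c'‖ := by ring
    _ = n * ξ * ‖c‖ * ‖c'‖ := by rw [Real.mul_self_sqrt (Nat.cast_nonneg n)]

/-- field `gram1` -/
theorem gram1_of (hC : IsGamma (sob m)) (hp : Ker0 m p) (hu : ∀ i, u i ∈ (sob m).Test)
    (hs : 0 < s) (hξ : 0 ≤ ξ)
    (he : ∀ i j, pt m p s (fun z => |(sob m).Γ (u i) (u j) z - if i = j then 1 else 0|) x ≤ ξ)
    (c c' : E n) :
    PP m p s x |(sob m).Γ (uc u c) (uc u c') - ⟪c, c'⟫_ℝ • (1 : M →ₘ[m] ℝ)| ≤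
      n * ξ * ‖c‖ * ‖c'‖ := by
  refine le_trans (le_of_eq ?_) (gram_pt hC hp hu hs hξ he c c')
  rw [H751.PP_eq_pt hp hs x]
  refine pt_congr hp ?_ s x
  filter_upwards [AEEqFun.coeFn_abs ((sob m).Γ (uc u c) (uc u c') - ⟪c, c'⟫_ℝ • (1 : M →ₘ[m] ℝ)),
    sub_ae ((sob m).Γ (uc u c) (uc u c')) (⟪c, c'⟫_ℝ • (1 : M →ₘ[m] ℝ)),
    smul_ae (1 : M →ₘ[m] ℝ) ⟪c, c'⟫_ℝ, one_ae (M := M) (m := m)] with z a1 a2 a3 a4
  rw [a1, a2, a3, a4, mul_one]

/-- field `gram` -/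
theorem gram_of (hC : IsGamma (sob m)) (hp : Ker0 m p) (hu : ∀ i, u i ∈ (sob m).TestI)
    (hs : 0 < s) (hξ : 0 ≤ ξ)
    (he : ∀ i j, pt m p s (fun z => |(sob m).Γ (u i) (u j) z - if i = j then 1 else 0|) x ≤ ξ)
    (c c' : E n) : |Gm m p u s x c c' - ⟪c, c'⟫_ℝ| ≤ n * ξ * ‖c‖ * ‖c'‖ := by
  refine le_trans ?_ (gram_pt hC hp (fun i => (hu i).1) hs hξ he c c')
  have hT : ∀ d : E n, uc u d ∈ (sob m).Test := fun d =>
    (hC.tI_sum _ fun i _ => hC.tI_smul _ (hu i)).1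
  have i1 : Integrable (fun z => p s x z * (sob m).Γ (uc u c) (uc u c') z) m :=
    pt_int hp hs x (hC.toIsDir.Γ_mem2 (hC.test_A (hT c)).1 (hC.test_Γ_top (hT c))
      (hC.test_A (hT c')).1)
  have e1 : Gm m p u s x c c' - ⟪c, c'⟫_ℝ
      = pt m p s (fun z => (sob m).Γ (uc u c) (uc u c') z - ⟪c, c'⟫_ℝ) x := by
    unfold Gm
    rw [H751.PP_eq_pt hp hs x]
    unfold pt
    have e2 : ∀ z, p s x z * ((sob m).Γ (uc u c) (uc u c') z - ⟪c, c'⟫_ℝ)
        = p s x z * (sob m).Γ (uc u c) (uc u c') z - p s x z * ⟪c, c'⟫_ℝ := fun z => by ring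
    simp_rw [e2]
    rw [integral_sub i1 ((hp.int s hs x).mul_const _), integral_mul_const, hp.mass s hs x, one_mul]
  rw [e1]
  exact abs_pt_le hp hs x _

/-- `∫ Δp_s(x,·) F ≤ (C/s) √(P_s (F - c)²(x))` for bounded `F` -/
theorem lap_ph_sq [SigmaFinite m] (hC : IsGamma (sob m)) (hn : (0 : ℝ) < n)
    (hBE : (sob m).BE K n) (hp : Ker0 m p) (hk : KB n o A p)
    (hfin : ∀ (x : M) (r : ℝ), m (ball x r) < ∞) (hs : 0 < s) (hKs : |K| * s ≤ 1)
    {F : M →ₘ[m] ℝ} (hF : MemLp F 2 m) (hFt : MemLp F ∞ m) (c : ℝ) :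
    (s * I ((sob m).lap (ph m p s x) * F)) ^ 2 ≤ 96 * n * pt m p s (fun z => (F z - c) ^ 2) x := by
  have hD := hC.toIsDir
  have hT : 0 < s / 2 := by linarith
  have hL := hD.P_isLap hT hF
  set H := (sob m).lap ((sob m).P (s / 2) F) with hH
  have e1 : I ((sob m).lap (ph m p s x) * F) = pt m p (s / 2) H x := by
    have a1 := I_lap_ph_P hD hp hT.le hT x hF
    have a2 := I_ph_lap hD hp hT x hL
    rw [show s / 2 + s / 2 = s by ring] at a1
    rw [← a1, ← a2, I_ph_mul hp hT x]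
  have hi : Integrable (fun z => p (s / 2) x z * H z ^ 2) m := by
    refine ((int_ph_mul hp hT x).1 (mem_mul_top (ph_top hC hp hk hT x) (mem_sq hL.2.1))).congr ?_
    filter_upwards [sq_ae H] with z hz
    rw [hz]
  have e2 := pt_jensen hp hT x H.aestronglyMeasurable hi
  -- bound of `H²`
  obtain ⟨B, hB⟩ := mem_top_iff.1 hFt
  have hGm : AEStronglyMeasurable (fun w => (F w - c) ^ 2) m := by
    have : AEStronglyMeasurable (fun w => F w - c) m :=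
      F.aestronglyMeasurable.sub aestronglyMeasurable_const
    exact this.pow 2
  have hGb : ∀ᵐ z ∂m, |(F z - c) ^ 2| ≤ (B + |c|) ^ 2 := by
    filter_upwards [hB] with z hz
    rw [abs_of_nonneg (sq_nonneg _), ← sq_abs]
    refine pow_le_pow_left₀ (abs_nonneg _) ?_ 2
    exact (abs_sub _ _).trans (add_le_add_left hz _)
  have hb := H446.lap_sq_const hC hn hBE hp hT hF hFt c
  have hpm := H446.pt_meas hD hp hfin hT hGm hGb
  have hpb : ∀ᵐ z ∂m, |pt m p (s / 2) (fun w => (F w - c) ^ 2) z| ≤ (B + |c|) ^ 2 :=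
    Eventually.of_forall fun z => pt_bdd hp hT z hGm hGb
  have hpt : MemLp (pt m p (s / 2) (fun w => (F w - c) ^ 2)) ∞ m :=
    memLp_top_of_bound hpm.aestronglyMeasurable _ hpb
  set c₁ : ℝ := 8 * n * Real.exp (2 * |K| * (s / 2)) / (s / 2) ^ 2 with hc₁
  have e3 : pt m p (s / 2) (fun z => H z ^ 2) x ≤
      pt m p (s / 2) (fun z => c₁ * pt m p (s / 2) (fun w => (F w - c) ^ 2) z) x :=
    pt_mono hp hT x hi (pt_int_top hp hT x (hpt.const_mul c₁)) hb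
  rw [H446.pt_const_mul hp, H446.pt_pt_bdd hD hp hfin hT hT x hGm hGb,
    show s / 2 + s / 2 = s by ring] at e3
  have p0 : 0 ≤ pt m p s (fun w => (F w - c) ^ 2) x :=
    pt_nonneg hp hs x (Eventually.of_forall fun z => sq_nonneg _)
  have e4 : c₁ * s ^ 2 ≤ 96 * n := by
    have h1 : Real.exp (2 * |K| * (s / 2)) ≤ 3 := by
      have h2 : 2 * |K| * (s / 2) ≤ 1 := by linarith
      have h3 := Real.exp_le_exp.2 h2
      have h4 := Real.exp_one_lt_d9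
      linarith
    have h5 : c₁ * s ^ 2 = 32 * n * Real.exp (2 * |K| * (s / 2)) := by
      rw [hc₁]; field_simp; ring
    rw [h5]
    nlinarith
  rw [e1, mul_pow]
  calc s ^ 2 * pt m p (s / 2) H x ^ 2
      ≤ s ^ 2 * (c₁ * pt m p s (fun w => (F w - c) ^ 2) x) := by
        gcongr
        exact e2.trans e3
    _ = (c₁ * s ^ 2) * pt m p s (fun w => (F w - c) ^ 2) x := by ring
    _ ≤ _ := mul_le_mul_of_nonneg_right e4 p0

/-- field `gam` -/
theorem gam_of [SigmaFinite m] (hC : IsGamma (sob m)) (hn : 1 ≤ n)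
    (hBE : (sob m).BE K n) (hp : Ker0 m p) (hk : KB n o A p)
    (hfin : ∀ (x : M) (r : ℝ), m (ball x r) < ∞) (hu : ∀ i, u i ∈ (sob m).TestI)
    (h4 : ∀ i, ∀ᵐ z ∂m, (sob m).Γ (u i) (u i) z ≤ 4) {Q D0 ρ : ℝ} (hs : 0 < s)
    (hQ : 0 ≤ Q) (hρ : 0 < ρ) (hsQ : s ≤ Q * ρ ^ 2) (hKs : |K| * s ≤ 1) (hξ : 0 ≤ ξ)
    (hD0 : 0 ≤ D0)
    (he : ∀ i j, pt m p s (fun z => |(sob m).Γ (u i) (u j) z - if i = j then 1 else 0|) x ≤ ξ)
    (hl : ∀ i, pt m p s ((sob m).Γ ((sob m).lap (u i)) ((sob m).lap (u i))) x ≤ (D0 / ρ ^ 2) ^ 2)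
    (hkk : |K| * ρ ^ 2 ≤ D0) (c : E n) :
    s * gm m K p u s x c c ≤ 20 * n ^ 2 * (√ξ + Q * D0) * ‖c‖ ^ 2 := by
  have hD := hC.toIsDir
  have hn0 : (0 : ℝ) < n := by exact_mod_cast hn
  have hn1 : (1 : ℝ) ≤ n := by exact_mod_cast hn
  have hBi : (sob m).BEi K := hC.bei hn0 hBE
  set f := uc u c with hf
  obtain ⟨hTI, hlapf⟩ := H924.testI_sum hC hBi hu (fun i => c i) Finset.univ
  have hTI' : f ∈ (sob m).TestI := hTI
  have hT : f ∈ (sob m).Test := hTI'.1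
  have hfA := hC.test_A hT
  have hlap : (sob m).lap f = ∑ i, c i • (sob m).lap (u i) := hlapf
  have hlW : ∀ i, (sob m).lap (u i) ∈ (sob m).W := fun i => (hC.testI_lap_A' (hu i)).1
  have hlfW : (sob m).lap f ∈ (sob m).W := (hC.testI_lap_A' hTI').1
  set F := (sob m).Γ f f with hF
  have hF2 : MemLp F 2 m := hC.Γ_mem2' hBi hT hT
  have hFt : MemLp F ∞ m := hC.test_Γ_top hT
  have hcn : ∑ i, c i ^ 2 = ‖c‖ ^ 2 := by
    rw [EuclideanSpace.norm_sq_eq]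
    simp
  have hFle : ∀ᵐ z ∂m, F z ≤ 4 * n * ‖c‖ ^ 2 := by
    filter_upwards [H924.Γ_sum_le hD (fun i => (hC.test_A (hu i).1).1) (fun i => c i),
      ae_all_iff.2 h4] with z h1 h2
    refine h1.trans ?_
    calc (n : ℝ) * ∑ i, c i ^ 2 * (sob m).Γ (u i) (u i) z ≤ n * ∑ i, c i ^ 2 * 4 := by
          gcongr with i _
          exact h2 i
      _ = _ := by rw [← Finset.sum_mul, hcn]; ring
  have hF0 : ∀ᵐ z ∂m, 0 ≤ F z := hD.Γ_nonneg_ae hfA.1
  -- the expansion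
  have hexp := (H446.cen hC hp hk x).lap_av_Γ (K₀ := |K|) hC hBi hs hT hT
  have e1 : 2 * gm m K p u s x c c = I ((sob m).lap (ph m p s x) * F)
      - 2 * pt m p s ((sob m).Γ f ((sob m).lap f)) x + 2 * |K| * pt m p s F x := by
    have e2 : ph m p s x * ((sob m).Γ f ((sob m).lap f) + (sob m).Γ f ((sob m).lap f))
        = (2 : ℝ) • (ph m p s x * (sob m).Γ f ((sob m).lap f)) := by
      rw [← two_smul ℝ ((sob m).Γ f ((sob m).lap f)), mul_smul_comm]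
    rw [e2, I_smul, I_ph_mul hp hs x, I_ph_mul hp hs x] at hexp
    have e3 : gm m K p u s x c c = (sob m).NN (-|K|) f f (ph m p s x) := rfl
    rw [e3]
    linarith
  -- first term
  have t1 : s * I ((sob m).lap (ph m p s x) * F) ≤ 22 * n ^ 2 * √ξ * ‖c‖ ^ 2 := by
    have a1 := lap_ph_sq (x := x) hC hn0 hBE hp hk hfin hs hKs hF2 hFt (‖c‖ ^ 2)
    have a2 : pt m p s (fun z => (F z - ‖c‖ ^ 2) ^ 2) x ≤
        ((4 * n + 1) * ‖c‖ ^ 2) * (n * ξ * ‖c‖ ^ 2) := by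
      have b1 := gram_pt hC hp (fun i => (hu i).1) hs hξ he c c
      rw [real_inner_self_eq_norm_sq] at b1
      have b2 : MemLp (fun z => F z - ‖c‖ ^ 2) ∞ m := hFt.sub (memLp_top_const _)
      have b3 : pt m p s (fun z => (F z - ‖c‖ ^ 2) ^ 2) x ≤
          pt m p s (fun z => ((4 * n + 1) * ‖c‖ ^ 2) * |F z - ‖c‖ ^ 2|) x := by
        refine pt_mono hp hs x (pt_int_top hp hs x ?_) (pt_int_top hp hs x (b2.abs.const_mul _)) ?_
        · have b4 : MemLp (fun z => (F z - ‖c‖ ^ 2) * (F z - ‖c‖ ^ 2)) ∞ m := b2.mul b2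
          refine b4.ae_eq (Eventually.of_forall fun z => ?_)
          simp only [sq]
        · filter_upwards [hFle, hF0] with z z1 z2
          rw [← sq_abs, sq]
          refine mul_le_mul_of_nonneg_right ?_ (abs_nonneg _)
          rw [abs_le]
          have : 0 ≤ ‖c‖ ^ 2 := sq_nonneg _
          constructor <;> nlinarith
      rw [H446.pt_const_mul hp] at b3
      refine b3.trans (mul_le_mul_of_nonneg_left ?_ (by positivity))
      refine b1.trans (le_of_eq (by ring))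
    refine abs_le_of_sq_le_sq' ?_ (by positivity) |>.2
    refine a1.trans ?_
    have a3 : (22 * n ^ 2 * √ξ * ‖c‖ ^ 2) ^ 2 = 484 * n ^ 4 * ξ * ‖c‖ ^ 4 := by
      have : √ξ ^ 2 = ξ := Real.sq_sqrt hξ
      calc (22 * n ^ 2 * √ξ * ‖c‖ ^ 2) ^ 2 = 484 * n ^ 4 * √ξ ^ 2 * ‖c‖ ^ 4 := by ring
        _ = _ := by rw [this]
    rw [a3]
    have a4 : 96 * (n : ℝ) * (((4 * n + 1) * ‖c‖ ^ 2) * (n * ξ * ‖c‖ ^ 2))
        = (96 * n ^ 2 * (4 * n + 1)) * (ξ * ‖c‖ ^ 4) := by ring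
    have a5 : 96 * (n : ℝ) ^ 2 * (4 * n + 1) ≤ 484 * n ^ 4 := by
      have c1 : (n : ℝ) ≤ n ^ 2 := by nlinarith
      have c2 : 96 * (4 * (n : ℝ) + 1) ≤ 484 * n ^ 2 := by nlinarith
      have c3 : (n : ℝ) ^ 2 * (96 * (4 * n + 1)) ≤ n ^ 2 * (484 * n ^ 2) :=
        mul_le_mul_of_nonneg_left c2 (sq_nonneg _)
      nlinarith
    calc 96 * (n : ℝ) * pt m p s (fun z => (F z - ‖c‖ ^ 2) ^ 2) x
        ≤ 96 * n * (((4 * n + 1) * ‖c‖ ^ 2) * (n * ξ * ‖c‖ ^ 2)) := by gcongr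
      _ = (96 * n ^ 2 * (4 * n + 1)) * (ξ * ‖c‖ ^ 4) := a4
      _ ≤ (484 * n ^ 4) * (ξ * ‖c‖ ^ 4) := mul_le_mul_of_nonneg_right a5 (by positivity)
      _ = _ := by ring
  -- second term
  have hptF : pt m p s F x ≤ 4 * n * ‖c‖ ^ 2 := by
    have := pt_mono hp hs x (pt_int_top hp hs x hFt)
      (pt_int_top hp hs x (memLp_top_const (4 * n * ‖c‖ ^ 2))) hFle
    rwa [pt_const hp hs x] at this
  have hptF0 : 0 ≤ pt m p s F x := pt_nonneg hp hs x hF0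
  have t2 : -(s * pt m p s ((sob m).Γ f ((sob m).lap f)) x) ≤ 2 * n * (Q * D0) * ‖c‖ ^ 2 := by
    have a1 := H446.pt_Γ_cs hC hn0 hBE hp hk hfA.1 hlfW hs x
    have a2 : pt m p s ((sob m).Γ ((sob m).lap f) ((sob m).lap f)) x ≤
        n * ‖c‖ ^ 2 * (D0 / ρ ^ 2) ^ 2 := by
      have hi : ∀ i, Integrable (fun z => p s x z *
          (sob m).Γ ((sob m).lap (u i)) ((sob m).lap (u i)) z) m := fun i =>
        (int_ph_mul hp hs x).1 (mem_mul_top (ph_top hC hp hk hs x) (hD.Γ_mem1 (hlW i) (hlW i)))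
      have hi2 : Integrable (fun z => ∑ i, n * c i ^ 2 *
          (p s x z * (sob m).Γ ((sob m).lap (u i)) ((sob m).lap (u i)) z)) m :=
        integrable_finset_sum _ fun i _ => (hi i).const_mul _
      have b1 : pt m p s ((sob m).Γ ((sob m).lap f) ((sob m).lap f)) x ≤
          ∫ z, ∑ i, n * c i ^ 2 *
          (p s x z * (sob m).Γ ((sob m).lap (u i)) ((sob m).lap (u i)) z) ∂m := by
        refine integral_mono_ae ((int_ph_mul hp hs x).1
          (mem_mul_top (ph_top hC hp hk hs x) (hD.Γ_mem1 hlfW hlfW))) hi2 ?_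
        rw [hlap]
        filter_upwards [H924.Γ_sum_le hD hlW (fun i => c i)] with z hz
        refine (mul_le_mul_of_nonneg_left hz (hp.nonneg s hs x z)).trans (le_of_eq ?_)
        rw [Finset.mul_sum, Finset.mul_sum]
        exact Finset.sum_congr rfl fun i _ => by ring
      refine b1.trans ?_
      rw [integral_finset_sum _ fun i _ => (hi i).const_mul _]
      calc ∑ i, ∫ z, n * c i ^ 2 *
            (p s x z * (sob m).Γ ((sob m).lap (u i)) ((sob m).lap (u i)) z) ∂m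
          ≤ ∑ i, n * c i ^ 2 * (D0 / ρ ^ 2) ^ 2 := by
            refine Finset.sum_le_sum fun i _ => ?_
            rw [integral_const_mul]
            exact mul_le_mul_of_nonneg_left (hl i) (by positivity)
        _ = n * ‖c‖ ^ 2 * (D0 / ρ ^ 2) ^ 2 := by
            rw [← Finset.sum_mul, ← Finset.mul_sum, hcn]
    have a3 : √(pt m p s ((sob m).Γ f f) x) * √(pt m p s ((sob m).Γ ((sob m).lap f)
        ((sob m).lap f)) x) ≤ 2 * n * ‖c‖ ^ 2 * (D0 / ρ ^ 2) := by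
      have b1 := Real.sqrt_le_sqrt hptF
      have b2 := Real.sqrt_le_sqrt a2
      have b3 : √(4 * n * ‖c‖ ^ 2) * √(n * ‖c‖ ^ 2 * (D0 / ρ ^ 2) ^ 2)
          = 2 * n * ‖c‖ ^ 2 * (D0 / ρ ^ 2) := by
        rw [← Real.sqrt_mul (by positivity)]
        rw [show 4 * (n : ℝ) * ‖c‖ ^ 2 * (n * ‖c‖ ^ 2 * (D0 / ρ ^ 2) ^ 2)
          = (2 * n * ‖c‖ ^ 2 * (D0 / ρ ^ 2)) ^ 2 by ring]
        exact Real.sqrt_sq (by positivity)
      rw [← b3]
      exact mul_le_mul b1 b2 (Real.sqrt_nonneg _) (Real.sqrt_nonneg _)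
    have a4 := (abs_le.1 (a1.trans a3)).1
    have a5 : s * (2 * n * ‖c‖ ^ 2 * (D0 / ρ ^ 2)) ≤ 2 * n * (Q * D0) * ‖c‖ ^ 2 := by
      calc s * (2 * n * ‖c‖ ^ 2 * (D0 / ρ ^ 2))
          ≤ (Q * ρ ^ 2) * (2 * n * ‖c‖ ^ 2 * (D0 / ρ ^ 2)) := by gcongr
        _ = _ := by field_simp
    nlinarith
  -- third term
  have t3 : s * (|K| * pt m p s F x) ≤ 4 * n * (Q * D0) * ‖c‖ ^ 2 := by
    calc s * (|K| * pt m p s F x) ≤ (Q * ρ ^ 2) * (|K| * (4 * n * ‖c‖ ^ 2)) := by gcongr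
      _ = (|K| * ρ ^ 2) * (Q * (4 * n * ‖c‖ ^ 2)) := by ring
      _ ≤ D0 * (Q * (4 * n * ‖c‖ ^ 2)) := by gcongr
      _ = _ := by ring
  have e5 : s * gm m K p u s x c c = (s * I ((sob m).lap (ph m p s x) * F)) / 2
      + -(s * pt m p s ((sob m).Γ f ((sob m).lap f)) x) + s * (|K| * pt m p s F x) := by
    have : gm m K p u s x c c = (I ((sob m).lap (ph m p s x) * F)
      - 2 * pt m p s ((sob m).Γ f ((sob m).lap f)) x + 2 * |K| * pt m p s F x) / 2 := by linarith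
    rw [this]
    ring
  rw [e5]
  have n2 : (n : ℝ) ≤ n ^ 2 := by nlinarith
  have q0 : 0 ≤ Q * D0 * ‖c‖ ^ 2 := by positivity
  have q1 : 0 ≤ (n : ℝ) ^ 2 * √ξ * ‖c‖ ^ 2 := by positivity
  have q2 : (n : ℝ) * (Q * D0 * ‖c‖ ^ 2) ≤ n ^ 2 * (Q * D0 * ‖c‖ ^ 2) :=
    mul_le_mul_of_nonneg_right n2 q0
  have q3 : 0 ≤ (n : ℝ) ^ 2 * (Q * D0 * ‖c‖ ^ 2) := by positivity
  calc (s * I ((sob m).lap (ph m p s x) * F)) / 2
      + -(s * pt m p s ((sob m).Γ f ((sob m).lap f)) x) + s * (|K| * pt m p s F x)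
      ≤ 22 * n ^ 2 * √ξ * ‖c‖ ^ 2 / 2 + 2 * n * (Q * D0) * ‖c‖ ^ 2
        + 4 * n * (Q * D0) * ‖c‖ ^ 2 := by linarith
    _ = 11 * (n ^ 2 * √ξ * ‖c‖ ^ 2) + 6 * (n * (Q * D0 * ‖c‖ ^ 2)) := by ring
    _ ≤ 20 * (n ^ 2 * √ξ * ‖c‖ ^ 2) + 20 * (n ^ 2 * (Q * D0 * ‖c‖ ^ 2)) := by linarith
    _ = _ := by ring

end main

end Vale.Agent.P242.H757
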