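import Vale.Agent.P242.H757.Maps3

/-! P242, A-MAPS (helper757), part 4: step A. On `ball o (R₂ ρ)`: `|ΔP_s f| ≤ ε/ρ` and
`|P_t f - f| ≤ ε ρ` for the height functions. -/

set_option linter.all false

open MeasureTheory Filter Topology Set Metric
open scoped ENNReal NNReal MeasureTheory InnerProductSpace

universe u

namespace Vale.Agent.P242.H757

open Vale.Agent.P233 Vale.Agent.P233.RA Vale.Agent.P242.H71 Vale.Agent.P242.H990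
  Vale.Agent.P242.H520 Vale.Agent.P233.N2

theorem exp_small {C D R ε : ℝ} (hD : 0 < D) (hε : 0 < ε) :
    ∃ R₀, R ≤ R₀ ∧ ∀ R₁, R₀ ≤ R₁ → C * Real.exp (-((R₁ - R) ^ 2 / D)) ≤ ε := by
  have h1 : Tendsto (fun t : ℝ => C * Real.exp (-(t ^ 2 / D))) atTop (𝓝 0) := by
    have h2 : Tendsto (fun t : ℝ => t ^ 2 / D) atTop atTop :=
      (tendsto_pow_atTop (by norm_num)).atTop_div_const hD
    have h3 := (Real.tendsto_exp_neg_atTop_nhds_zero.comp h2).const_mul C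
    simpa using h3
  have h2 := (h1.eventually (gt_mem_nhds hε)).and (eventually_ge_atTop 0)
  obtain ⟨T, hT⟩ := eventually_atTop.1 h2
  refine ⟨R + max T 0, by linarith [le_max_right T 0], fun R₁ hR₁ => ?_⟩
  exact (hT (R₁ - R) (by linarith [le_max_left T 0])).1.le

/-- geometric data at scale `ρ` -/
structure GG {M : Type u} [MetricSpace M] (o : M) (K A : ℝ) (n : ℕ) (L ρ η R₁ Q' : ℝ)
    (φ : M → E n) (q : E n → M) : Prop where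
  R1 : 1 ≤ R₁
  Q1 : 1 ≤ Q'
  η0 : 0 < η
  η1 : η ≤ 1
  ρ0 : 0 < ρ
  L0 : 4 * (R₁ + 1) ^ 2 ≤ η * L
  nL : ((n : ℝ) + 1) / L ≤ η
  Rρ : R₁ * ρ ≤ 1
  Qρ : 512 * A ^ 2 * (Q' * ρ ^ 2) ≤ 1 / 2
  Kρ : |K| * (L * ρ) ^ 2 ≤ 1
  φo : φ o = 0
  iso : ∀ y ∈ ball o (2 * L * ρ), ∀ z ∈ ball o (2 * L * ρ),
    |dist (φ y) (φ z) - dist y z| ≤ η * ρ
  near : ∀ ξ : E n, ‖ξ‖ = 1 → ∀ z ∈ ball o (R₁ * ρ),
    |dist (q ξ) z - (L * ρ - ⟪ξ, φ z⟫_ℝ)| ≤ η * ρ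

namespace GG

variable {M : Type u} [MetricSpace M] {o : M} {K A : ℝ} {n : ℕ} {L ρ η R₁ Q' : ℝ}
  {φ : M → E n} {q : E n → M} (g : GG o K A n L ρ η R₁ Q' φ q)

include g

theorem Lpos : 0 < L := by
  have := g.L0
  have h1 := g.R1
  have h2 := g.η0
  by_contra hcon
  push Not at hcon
  nlinarith [sq_nonneg (R₁ + 1)]

theorem Lge : 4 * (R₁ + 1) ^ 2 ≤ L := by
  have := g.L0
  have := g.η1
  have := g.Lpos
  nlinarith

theorem R_le : R₁ + 2 ≤ L / 4 := by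
  have h1 := g.R1
  have h2 := g.Lge
  nlinarith

theorem apos : 0 < L * ρ := mul_pos g.Lpos g.ρ0

theorem ball_sub : ball o (R₁ * ρ) ⊆ ball o (2 * L * ρ) := by
  have h1 := g.R_le
  have h2 := g.R1
  have h3 := g.ρ0
  exact ball_subset_ball (mul_le_mul_of_nonneg_right (by linarith) h3.le)

theorem norm_le {z : M} (hz : z ∈ ball o (R₁ * ρ)) : ‖φ z‖ ≤ (R₁ + 1) * ρ := by
  have h1 := g.R1
  have h2 := g.ρ0
  have h3 := g.Lpos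
  have h5 := g.iso z (g.ball_sub hz) o (mem_ball_self (by positivity))
  rw [g.φo, dist_zero_right] at h5
  have h6 := (abs_le.1 h5).2
  have h7 : dist z o < R₁ * ρ := hz
  have := g.η1
  nlinarith

theorem inner_le {ξ : E n} (hξ : ‖ξ‖ = 1) {z : M} (hz : z ∈ ball o (R₁ * ρ)) :
    |⟪ξ, φ z⟫_ℝ| ≤ (R₁ + 1) * ρ := by
  have := abs_real_inner_le_norm ξ (φ z)
  rw [hξ, one_mul] at this
  exact this.trans (g.norm_le hz)

theorem val {ξ : E n} (hξ : ‖ξ‖ = 1) {z : M} (hz : z ∈ ball o (R₁ * ρ)) :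
    |fv (L * ρ) (q ξ) z - (5 / 8 * (L * ρ) + ⟪ξ, φ z⟫_ℝ)| ≤ 2 * (η * ρ) := by
  have h1 := g.R1
  have h2 := g.ρ0
  have h3 := g.Lge
  have h4 := g.Lpos
  have h5 := g.η1
  have h6 := g.η0
  have h12 := g.R_le
  have h7 := fv_near (b := (R₁ + 2) * ρ) g.apos (g.near ξ hξ z hz)
    (by have := g.inner_le hξ hz; nlinarith)
    (by rw [mul_div_right_comm]; exact mul_le_mul_of_nonneg_right h12 h2.le)
  refine h7.trans ?_
  have h8 : ((R₁ + 2) * ρ) ^ 2 / (2 * (L * ρ)) ≤ η * ρ := by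
    rw [div_le_iff₀ (by positivity)]
    have h9 : (R₁ + 2) ^ 2 ≤ 4 * (R₁ + 1) ^ 2 := by nlinarith
    have h10 := g.L0
    have h11 : (R₁ + 2) ^ 2 * ρ ^ 2 ≤ (2 * (η * L)) * ρ ^ 2 := by
      refine mul_le_mul_of_nonneg_right ?_ (by positivity)
      nlinarith
    nlinarith
  linarith

theorem ratio {ξ : E n} (hξ : ‖ξ‖ = 1) {z : M} (hz : z ∈ ball o (R₁ * ρ)) :
    dist z (q ξ) < 3 / 2 * (L * ρ) ∧ |(dist z (q ξ) / (L * ρ)) ^ 2 - 1| ≤ η := by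
  have h1 := g.R1
  have h2 := g.ρ0
  have h3 := g.Lge
  have h4 := g.Lpos
  have h5 := g.η1
  have h6 := g.η0
  have h0 := g.apos
  have h10 := g.L0
  have h7 := abs_le.1 (g.near ξ hξ z hz)
  have h8 := abs_le.1 (g.inner_le hξ hz)
  rw [dist_comm] at h7
  obtain ⟨β, hβ⟩ : ∃ β, β = dist z (q ξ) / (L * ρ) - 1 := ⟨_, rfl⟩
  have hd : dist z (q ξ) = (1 + β) * (L * ρ) := by rw [hβ]; field_simp; ring
  have e1 : |β * (L * ρ)| ≤ (R₁ + 2) * ρ := by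
    have : β * (L * ρ) = dist z (q ξ) - L * ρ := by rw [hd]; ring
    rw [this, abs_le]
    constructor <;> nlinarith
  have e2 : |β| * L ≤ R₁ + 2 := by
    rw [abs_mul, abs_of_pos h0] at e1
    have : |β| * L * ρ ≤ (R₁ + 2) * ρ := by linarith
    exact le_of_mul_le_mul_right this h2
  have e3 : |β| ≤ η / 4 := by
    by_contra hcon
    push Not at hcon
    have : (R₁ + 2) ≤ (R₁ + 1) ^ 2 := by nlinarith
    nlinarith
  have e3' := abs_le.1 e3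
  constructor
  · rw [hd]
    nlinarith
  · have e4 : (dist z (q ξ) / (L * ρ)) ^ 2 - 1 = β * (2 + β) := by
      rw [hd]
      field_simp
      ring
    rw [e4, abs_mul]
    have e5 : |2 + β| ≤ 3 := by
      rw [abs_le]
      constructor <;> linarith
    calc |β| * |2 + β| ≤ η / 4 * 3 := by gcongr
      _ ≤ η := by linarith

end GG

variable {M : Type u} [MetricSpace M] [CompleteSpace M] [SecondCountableTopology M]
  [MeasurableSpace M] [BorelSpace M] {m : Measure M} {n : ℕ} {K : ℝ} {o : M} {A : ℝ}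
  {p : ℝ → M → M → ℝ}

theorem dist_le_exp {ρ : ℝ} (hρ : 0 < ρ) (z w : M) : dist z w ≤ ρ * Real.exp (1 * (dist z w / ρ)) := by
  have h1 : dist z w / ρ + 1 ≤ Real.exp (dist z w / ρ) := Real.add_one_le_exp _
  have h2 : dist z w = ρ * (dist z w / ρ) := by field_simp
  rw [one_mul]
  calc dist z w = ρ * (dist z w / ρ) := h2
    _ ≤ ρ * Real.exp (dist z w / ρ) := by gcongr; linarith

/-- the excess `f_ξ + f_{-ξ} - 5a/4` is small near `o` -/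
theorem excess (h : Env m n K o A p) {L ρ η R₁ Q' : ℝ} {φ : M → E n} {q : E n → M}
    (g : GG o K A n L ρ η R₁ Q' φ q) {ξ : E n} (hξ : ‖ξ‖ = 1) :
    (∀ᵐ z ∂m, (fF m (L * ρ) (q ξ) + fF m (L * ρ) (q (-ξ)) - (5 / 4 * (L * ρ)) • (1 : M →ₘ[m] ℝ) :
      M →ₘ[m] ℝ) z = fv (L * ρ) (q ξ) z + fv (L * ρ) (q (-ξ)) z - 5 / 4 * (L * ρ)) ∧
    (∀ z ∈ ball o (R₁ * ρ), |fv (L * ρ) (q ξ) z + fv (L * ρ) (q (-ξ)) z - 5 / 4 * (L * ρ)|
      ≤ 4 * (η * ρ)) ∧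
    ∀ z, |fv (L * ρ) (q ξ) z + fv (L * ρ) (q (-ξ)) z - 5 / 4 * (L * ρ)|
      ≤ 7 * ρ * Real.exp (1 * (dist z o / ρ)) := by
  have ha := g.apos
  have hρ := g.ρ0
  have hη0 := g.η0
  have hη1 := g.η1
  have hR1 := g.R1
  have hξ' : ‖-ξ‖ = 1 := by rw [norm_neg]; exact hξ
  have hnear : ∀ z ∈ ball o (R₁ * ρ),
      |fv (L * ρ) (q ξ) z + fv (L * ρ) (q (-ξ)) z - 5 / 4 * (L * ρ)| ≤ 4 * (η * ρ) := by
    intro z hz
    have a1 := g.val hξ hz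
    have a2 := g.val hξ' hz
    have a3 : ⟪-ξ, φ z⟫_ℝ = -⟪ξ, φ z⟫_ℝ := by rw [inner_neg_left]
    rw [a3] at a2
    have e1 : fv (L * ρ) (q ξ) z + fv (L * ρ) (q (-ξ)) z - 5 / 4 * (L * ρ)
        = (fv (L * ρ) (q ξ) z - (5 / 8 * (L * ρ) + ⟪ξ, φ z⟫_ℝ))
        + (fv (L * ρ) (q (-ξ)) z - (5 / 8 * (L * ρ) + -⟪ξ, φ z⟫_ℝ)) := by ring
    rw [e1]
    refine (abs_add_le _ _).trans ?_
    linarith
  refine ⟨?_, hnear, ?_⟩
  · filter_upwards [sub_ae (fF m (L * ρ) (q ξ) + fF m (L * ρ) (q (-ξ)))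
        ((5 / 4 * (L * ρ)) • (1 : M →ₘ[m] ℝ)), add_ae (fF m (L * ρ) (q ξ)) (fF m (L * ρ) (q (-ξ))),
      smul_ae (1 : M →ₘ[m] ℝ) (5 / 4 * (L * ρ)), one_ae (M := M) (m := m),
      fF_ae (m := m) ha (q ξ), fF_ae (m := m) ha (q (-ξ))] with z a1 a2 a3 a4 a5 a6
    rw [a1, a2, a3, a4, a5, a6, mul_one]
  · intro z
    have ho : o ∈ ball o (R₁ * ρ) := mem_ball_self (by positivity)
    have a1 := hnear o ho
    have a2 := fv_lip ha (q ξ) z o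
    have a3 := fv_lip ha (q (-ξ)) z o
    have e1 : fv (L * ρ) (q ξ) z + fv (L * ρ) (q (-ξ)) z - 5 / 4 * (L * ρ)
        = (fv (L * ρ) (q ξ) o + fv (L * ρ) (q (-ξ)) o - 5 / 4 * (L * ρ))
          + (fv (L * ρ) (q ξ) z - fv (L * ρ) (q ξ) o)
          + (fv (L * ρ) (q (-ξ)) z - fv (L * ρ) (q (-ξ)) o) := by ring
    have e2 : 1 ≤ Real.exp (1 * (dist z o / ρ)) := Real.one_le_exp (by positivity)
    have e3 := dist_le_exp hρ z o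
    rw [e1]
    refine (abs_add_le _ _).trans ((add_le_add_left (abs_add_le _ _) _).trans ?_)
    have e4 : 4 * (η * ρ) ≤ 4 * ρ * Real.exp (1 * (dist z o / ρ)) := by
      have : η * ρ ≤ 1 * ρ := by gcongr
      nlinarith
    linarith

theorem kap_le {L ρ η R₁ Q' : ℝ} {φ : M → E n} {q : E n → M}
    (g : GG o K A n L ρ η R₁ Q' φ q) : ((n : ℝ) + 1) / (L * ρ) ≤ η / ρ := by
  rw [← div_div]
  exact div_le_div_of_nonneg_right g.nL g.ρ0.le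

/-- the Laplacian bound from the smoothed excess -/
theorem stepA1 (h : Env m n K o A p) {L ρ η R₁ Q' : ℝ} {φ : M → E n} {q : E n → M}
    (g : GG o K A n L ρ η R₁ Q' φ q) {ξ : E n} (hξ : ‖ξ‖ = 1) {CK ε₁ s : ℝ} {x : M}
    (hCK : 1 ≤ CK) (hε₁ : 0 ≤ ε₁)
    (hlap : ∀ s, 0 < s → 512 * A ^ 2 * s ≤ 1 / 2 →
      ∀ x, dist x o ≤ 1 → ∀ F : M →ₘ[m] ℝ, Integrable (fun z => p (512 * A ^ 2 * s) x z * F z) m →
      MemLp ((sob m).lap (ph m p s x) * F : M →ₘ[m] ℝ) 1 m ∧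
      |I ((sob m).lap (ph m p s x) * F)| ≤
        CK / s * pt m p (512 * A ^ 2 * s) (fun z => |F z|) x)
    (hxo : dist x o ≤ 1) (hs1 : ρ ^ 2 / Q' ≤ s) (hs3 : 512 * A ^ 2 * s ≤ 1 / 2)
    (b1 : Integrable (fun z => p (512 * A ^ 2 * s) x z *
      (fF m (L * ρ) (q ξ) + fF m (L * ρ) (q (-ξ)) - (5 / 4 * (L * ρ)) • (1 : M →ₘ[m] ℝ) :
        M →ₘ[m] ℝ) z) m)
    (b2 : pt m p (512 * A ^ 2 * s) (fun z =>
      |(fF m (L * ρ) (q ξ) + fF m (L * ρ) (q (-ξ)) - (5 / 4 * (L * ρ)) • (1 : M →ₘ[m] ℝ) :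
        M →ₘ[m] ℝ) z|) x ≤ (4 * η + ε₁) * ρ) :
    |I ((sob m).lap (ph m p s x) * fF m (L * ρ) (q ξ))| ≤
      (η + 4 * (CK * Q' * η) + CK * Q' * ε₁) / ρ := by
  have hA := env_A h
  have ha := g.apos
  have hρ := g.ρ0
  have hη0 := g.η0
  have hQ1 := g.Q1
  have hs : 0 < s := lt_of_lt_of_le (by positivity) hs1
  have hfA : fF m (L * ρ) (q ξ) ∈ (sob m).A := fF_A h ha _
  have hfA' : fF m (L * ρ) (q (-ξ)) ∈ (sob m).A := fF_A h ha _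
  have c1 := lap_ge h hs x hfA.1 (fun φ hφ hφ1 h0 => fF_lc h ha g.Kρ _ hφ hφ1 h0)
  have c2 := lap_le h hs hs3 hxo (c := 5 / 4 * (L * ρ)) hfA.1 hfA'.1
    (fun φ hφ hφ1 h0 => fF_lc h ha g.Kρ _ hφ hφ1 h0)
  have c3 := (hlap s hs hs3 x hxo _ b1).2
  have hκη := kap_le g
  have hq : 0 < ρ ^ 2 / Q' := by positivity
  have c4 : CK / s * pt m p (512 * A ^ 2 * s) (fun z =>
      |(fF m (L * ρ) (q ξ) + fF m (L * ρ) (q (-ξ)) - (5 / 4 * (L * ρ)) • (1 : M →ₘ[m] ℝ) :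
        M →ₘ[m] ℝ) z|) x ≤ (4 * (CK * Q' * η) + CK * Q' * ε₁) / ρ := by
    refine (mul_le_mul (div_le_div_of_nonneg_left (by linarith) hq hs1) b2
      (pt_nonneg h.ker (by positivity) x (Eventually.of_forall fun z => abs_nonneg _))
      (by positivity)).trans (le_of_eq ?_)
    field_simp
  have c5 := le_abs_self (I ((sob m).lap (ph m p s x) *
    (fF m (L * ρ) (q ξ) + fF m (L * ρ) (q (-ξ)) - (5 / 4 * (L * ρ)) • (1 : M →ₘ[m] ℝ))))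
  have c7 : 0 ≤ (4 * (CK * Q' * η) + CK * Q' * ε₁) / ρ := by positivity
  have c8 : (η + 4 * (CK * Q' * η) + CK * Q' * ε₁) / ρ
      = η / ρ + (4 * (CK * Q' * η) + CK * Q' * ε₁) / ρ := by ring
  rw [c8, abs_le]
  constructor <;> linarith

/-- closeness of `P_t f` and `f` from the smoothed excess -/
theorem stepA2 (h : Env m n K o A p) {L ρ η R₁ Q' : ℝ} {φ : M → E n} {q : E n → M}
    (g : GG o K A n L ρ η R₁ Q' φ q) {ξ : E n} (hξ : ‖ξ‖ = 1) {ε₁ t : ℝ} {x : M}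
    (hε₁ : 0 ≤ ε₁) (hx : x ∈ ball o (R₁ * ρ)) (ht : 0 < t) (ht1 : t ≤ ρ ^ 2)
    (b2 : pt m p t (fun z =>
      |(fF m (L * ρ) (q ξ) + fF m (L * ρ) (q (-ξ)) - (5 / 4 * (L * ρ)) • (1 : M →ₘ[m] ℝ) :
        M →ₘ[m] ℝ) z|) x ≤ (4 * η + ε₁) * ρ) :
    |PP m p t x (fF m (L * ρ) (q ξ)) - fv (L * ρ) (q ξ) x| ≤ (9 * η + 2 * ε₁) * ρ := by
  have ha := g.apos
  have hρ := g.ρ0
  have hη0 := g.η0
  have hfA : fF m (L * ρ) (q ξ) ∈ (sob m).A := fF_A h ha _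
  have hfA' : fF m (L * ρ) (q (-ξ)) ∈ (sob m).A := fF_A h ha _
  have hκ0 : 0 ≤ ((n : ℝ) + 1) / (L * ρ) := by positivity
  have hκη := kap_le g
  obtain ⟨hev, hnear, hglob⟩ := excess (m := m) h g hξ
  have d1 := PP_near h ht x (c := 5 / 4 * (L * ρ)) (ε := (4 * η + ε₁) * ρ) (L := 3 / 2)
    (by norm_num) hfA.1 (fF_ae ha _) (fv_lip ha _)
    (fun φ hφ hφ1 h0 => fF_lc h ha g.Kρ _ hφ hφ1 h0) hfA'.1 (fF_ae ha _) (fv_lip ha _)
    (fun φ hφ hφ1 h0 => fF_lc h ha g.Kρ _ hφ hφ1 h0) b2 ((hnear x hx).trans (by nlinarith)) hκ0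
  refine d1.trans ?_
  have d2 : ((n : ℝ) + 1) / (L * ρ) * t ≤ η * ρ := by
    calc ((n : ℝ) + 1) / (L * ρ) * t ≤ η / ρ * ρ ^ 2 := by gcongr
      _ = η * ρ := by field_simp
  linarith

/-- **Step A** -/
theorem stepA (h : Env m n K o A p) {R₂ Q' ε : ℝ} (hR₂ : 1 ≤ R₂) (hQ' : 1 ≤ Q') (hε : 0 < ε) :
    ∃ R₀ η₀, R₂ ≤ R₀ ∧ 0 < η₀ ∧ ∀ R₁ η L ρ φ q, R₀ ≤ R₁ → η ≤ η₀ →
      GG o K A n L ρ η R₁ Q' φ q → ∀ ξ : E n, ‖ξ‖ = 1 → ∀ x, dist x o < R₂ * ρ →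
      (∀ s, ρ ^ 2 / Q' ≤ s → s ≤ Q' * ρ ^ 2 →
        |I ((sob m).lap (ph m p s x) * fF m (L * ρ) (q ξ))| ≤ ε / ρ) ∧
      ∀ t, 0 < t → t ≤ ρ ^ 2 →
        |PP m p t x (fF m (L * ρ) (q ξ)) - fv (L * ρ) (q ξ) x| ≤ ε * ρ := by
  have hA := env_A h
  obtain ⟨CK, hCK, hlap⟩ := lap_bd h
  obtain ⟨C, hC1, hC⟩ := tail_gen h (c := 1) (R := R₂) (Q := 512 * A ^ 2 * Q') zero_le_one
    (by linarith) (by positivity)
  have hCQ : 1 ≤ CK * Q' := by nlinarith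
  obtain ⟨R₀, hR₀, hsm⟩ := exp_small (C := 7 * C) (D := 32 * (512 * A ^ 2 * Q')) (R := R₂)
    (ε := ε / (4 * (CK * Q'))) (by positivity) (by positivity)
  refine ⟨R₀, ε / (18 * (CK * Q')), hR₀, by positivity, ?_⟩
  intro R₁ η L ρ φ q hR₁ hη g ξ hξ x hx
  have hρ := g.ρ0
  have hη0 := g.η0
  have hR12 : R₂ ≤ R₁ := hR₀.trans hR₁
  have hR1 := g.R1
  obtain ⟨hev, hnear, hglob⟩ := excess (m := m) h g hξ
  obtain ⟨ε₁, hε₁⟩ : ∃ ε₁, ε₁ = ε / (4 * (CK * Q')) := ⟨_, rfl⟩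
  have hε₁0 : 0 < ε₁ := by rw [hε₁]; positivity
  have hpt : ∀ s, 0 < s → s ≤ 512 * A ^ 2 * Q' * ρ ^ 2 →
      Integrable (fun z => p s x z *
      (fF m (L * ρ) (q ξ) + fF m (L * ρ) (q (-ξ)) - (5 / 4 * (L * ρ)) • (1 : M →ₘ[m] ℝ) :
        M →ₘ[m] ℝ) z) m ∧
      pt m p s (fun z =>
      |(fF m (L * ρ) (q ξ) + fF m (L * ρ) (q (-ξ)) - (5 / 4 * (L * ρ)) • (1 : M →ₘ[m] ℝ) :
        M →ₘ[m] ℝ) z|) x ≤ (4 * η + ε₁) * ρ := by
    intro s hs hs1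
    have hs2 : s ≤ 1 := by
      have := g.Qρ
      linarith
    obtain ⟨b1, b2⟩ := hC ρ hρ s hs hs2 hs1 x hx.le R₁ hR12 _
      (AEEqFun.aestronglyMeasurable (fF m (L * ρ) (q ξ) + fF m (L * ρ) (q (-ξ)) -
        (5 / 4 * (L * ρ)) • (1 : M →ₘ[m] ℝ)))
      (4 * (η * ρ)) (7 * ρ) (by positivity) (by positivity)
      (by filter_upwards [hev] with z hz hz1; rw [hz]; exact hnear z hz1)
      (by filter_upwards [hev] with z hz; rw [hz]; exact hglob z)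
    refine ⟨b1, b2.trans ?_⟩
    have b3 := hsm R₁ hR₁
    rw [← hε₁] at b3
    have b4 : 7 * ρ * C * Real.exp (-((R₁ - R₂) ^ 2 / (32 * (512 * A ^ 2 * Q')))) =
        ρ * (7 * C * Real.exp (-((R₁ - R₂) ^ 2 / (32 * (512 * A ^ 2 * Q'))))) := by ring
    rw [b4]
    have b5 := mul_le_mul_of_nonneg_left b3 hρ.le
    linarith
  have hxo : dist x o ≤ 1 := by
    have h1 := g.Rρ
    have h2 : R₂ * ρ ≤ R₁ * ρ := mul_le_mul_of_nonneg_right hR12 hρ.le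
    linarith
  have hCQη : CK * Q' * η ≤ ε / 18 := by
    have : CK * Q' * (ε / (18 * (CK * Q'))) = ε / 18 := by field_simp
    rw [← this]
    gcongr
  have hCQε : CK * Q' * ε₁ = ε / 4 := by rw [hε₁]; field_simp
  have hηε : η ≤ ε / 18 := (le_mul_of_one_le_left hη0.le hCQ).trans hCQη
  have hε₁ε : ε₁ ≤ ε / 4 := (le_mul_of_one_le_left hε₁0.le hCQ).trans hCQε.le
  refine ⟨fun s hs1 hs2 => ?_, fun t ht ht1 => ?_⟩
  · have hs : 0 < s := lt_of_lt_of_le (by positivity) hs1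
    have hs3 : 512 * A ^ 2 * s ≤ 1 / 2 := by
      refine le_trans ?_ g.Qρ
      gcongr
    obtain ⟨b1, b2⟩ := hpt (512 * A ^ 2 * s) (by positivity) (by
      calc 512 * A ^ 2 * s ≤ 512 * A ^ 2 * (Q' * ρ ^ 2) := by gcongr
        _ = _ := by ring)
    refine (stepA1 h g hξ hCK hε₁0.le hlap hxo hs1 hs3 b1 b2).trans ?_
    rw [div_le_div_iff_of_pos_right hρ]
    linarith
  · have ht2 : t ≤ 512 * A ^ 2 * Q' * ρ ^ 2 := by
      refine ht1.trans ?_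
      have : 1 ≤ 512 * A ^ 2 * Q' := by nlinarith [sq_nonneg A]
      exact le_mul_of_one_le_left (sq_nonneg ρ) this
    have hxb : x ∈ ball o (R₁ * ρ) := by
      rw [mem_ball]
      exact hx.trans_le (mul_le_mul_of_nonneg_right hR12 hρ.le)
    refine (stepA2 h g hξ hε₁0.le hxb ht ht1 (hpt t ht ht2).2).trans ?_
    exact mul_le_mul_of_nonneg_right (by linarith) hρ.le

end Vale.Agent.P242.H757
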