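import Vale.Agent.P242.H446.PreDef
import Vale.Agent.P242.H757.GramGam
import Vale.Agent.P242.H757.Maps4

/-! P242, A-MAPS (helper757): stage 2. From the one-sided bounds of `H446.Pre` to the full
configuration `H71.Cfg`. -/

set_option linter.all false

open MeasureTheory Filter Topology Set Metric
open scoped ENNReal NNReal InnerProductSpace

universe u

namespace Vale.Agent.P242.H757

open Vale.Agent.P233 Vale.Agent.P233.RA Vale.Agent.P242.H71 Vale.Agent.P242.H990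
  Vale.Agent.P242.H520

variable {M : Type u} [MetricSpace M] [CompleteSpace M] [SecondCountableTopology M]
  [MeasurableSpace M] [BorelSpace M] {m : Measure M} {n : ℕ} {K : ℝ} {o : M} {A : ℝ}
  {p : ℝ → M → M → ℝ}

theorem env_fin (h : Env m n K o A p) (x : M) (r : ℝ) : m (ball x r) < ∞ := by
  obtain ⟨θ, t⟩ := env_nsp h
  exact t.fin x r

/-- tail of the heat kernel outside `ball o (R₁ ρ)` -/
theorem tail_out (h : Env m n K o A p) {R Q : ℝ} (hR : 0 ≤ R) (hQ : 0 < Q) {ε : ℝ} (hε : 0 < ε) :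
    ∃ R₀, R ≤ R₀ ∧ ∀ R₁, R₀ ≤ R₁ → ∀ ρ, 0 < ρ → ∀ s, 0 < s → s ≤ 1 → s ≤ Q * ρ ^ 2 →
      ∀ x, dist x o ≤ R * ρ → ∀ F : M → ℝ, AEStronglyMeasurable F m → ∀ a b : ℝ, 0 ≤ a → 0 ≤ b →
      (∀ᵐ z ∂m, dist z o < R₁ * ρ → |F z| ≤ a) → (∀ᵐ z ∂m, |F z| ≤ b) →
      pt m p s (fun z => |F z|) x ≤ a + b * ε := by
  obtain ⟨C, hC1, hC⟩ := tail_gen h (c := 0) (R := R) (Q := Q) le_rfl hR hQ
  obtain ⟨R₀, hR₀, hsm⟩ := exp_small (C := C) (D := 32 * Q) (R := R) (ε := ε) (by positivity) hε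
  refine ⟨R₀, hR₀, fun R₁ hR₁ ρ hρ s hs hs1 hsQ x hx F hF a b ha hb h1 h2 => ?_⟩
  refine (hC ρ hρ s hs hs1 hsQ x hx R₁ (hR₀.trans hR₁) F hF a b ha hb h1 (by
    filter_upwards [h2] with z hz
    simpa using hz)).2.trans ?_
  rw [mul_assoc]
  have := hsm R₁ hR₁
  gcongr

/-- a point near `o` where `|∇u_i|²` is almost `1` on average -/
theorem good_pt (h : Env m n K o A p) {S R₁ σ ρ : ℝ} {u : Fin n → M →ₘ[m] ℝ} {uu : M → E n}
    (g : H446.Pre m n K o p S R₁ σ ρ u uu) (hS : 1 ≤ S) (hR₁ : 8 ≤ R₁) (hσ : 0 < σ)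
    (hσ1 : 24 * S * σ ≤ 1) (i : Fin n) :
    ∃ x ∈ ball o (8 * ρ), 1 - 24 * S * σ < pt m p (S * ρ ^ 2) ((sob m).Γ (u i) (u i)) x := by
  have := env_sigma h
  have := h.hyp.full
  have hρ := g.ρ_pos
  have hC := H751.env_gamma h
  have hσ2 : 24 * σ ≤ 1 := by nlinarith
  have hsub : ball o (8 * ρ) ⊆ ball o (R₁ * ρ) :=
    ball_subset_ball (mul_le_mul_of_nonneg_right hR₁ hρ.le)
  have hR₁ρ : 8 * ρ ≤ R₁ * ρ := mul_le_mul_of_nonneg_right hR₁ hρ.le
  -- the point `y` in the direction `e_i`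
  obtain ⟨v, hv⟩ : ∃ v : E n, v = EuclideanSpace.single i ρ := ⟨_, rfl⟩
  have hvn : ‖v‖ = ρ := by rw [hv]; simp [abs_of_pos hρ]
  obtain ⟨y, hy1, hy2⟩ := g.dens o (mem_ball_self (by positivity)) v (by rw [hvn]; linarith)
  rw [hvn] at hy1
  have hyo : y ∈ ball o (R₁ * ρ) := by
    rw [mem_ball, dist_comm]
    linarith
  have hoo : o ∈ ball o (R₁ * ρ) := mem_ball_self (by linarith)
  have h1 : (1 - σ) * ρ ≤ uu y i - uu o i := by
    have h2 : |(uu y - uu o - v) i| ≤ ‖uu y - uu o - v‖ := by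
      simpa using PiLp.norm_apply_le (uu y - uu o - v) i
    have h3 : (uu y - uu o - v) i = uu y i - uu o i - ρ := by
      rw [hv]
      simp
    rw [h3] at h2
    have h4 := (abs_le.1 (h2.trans hy2)).1
    linarith
  have h2 : dist o y ≤ (1 + 2 * σ) * ρ := by
    have h3 := (abs_le.1 (g.iso o hoo y hyo)).1
    have h4 : dist (uu o) (uu y) ≤ ρ + σ * ρ := by
      rw [dist_comm, dist_eq_norm]
      have e : uu y - uu o = (uu y - uu o - v) + v := by abel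
      rw [e]
      refine (norm_add_le _ _).trans ?_
      rw [hvn]
      linarith
    linarith
  have h3 : (1 - 24 * S * σ / 4) * dist o y < uu y i - uu o i := by
    refine lt_of_lt_of_le ?_ h1
    have hSσ : 24 * σ ≤ 24 * S * σ := by nlinarith
    calc (1 - 24 * S * σ / 4) * dist o y ≤ (1 - 24 * S * σ / 4) * ((1 + 2 * σ) * ρ) :=
          mul_le_mul_of_nonneg_left h2 (by linarith)
      _ ≤ (1 - 6 * σ) * ((1 + 2 * σ) * ρ) := by
          refine mul_le_mul_of_nonneg_right (by linarith) (by positivity)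
      _ < (1 - σ) * ρ := by
          rw [← mul_assoc]
          refine mul_lt_mul_of_pos_right ?_ hρ
          nlinarith
  obtain ⟨x, hx1, hx2⟩ := H446.exists_good hC (env_n h) (H751.env_be h) h.ker h.kb
    (u := u i) (v := fun z => uu z i) (x₀ := o) (y := y) (R := 8 * ρ) (S := S * ρ ^ 2)
    (D := σ / ρ ^ 2) (κ := 24 * S * σ) (env_fin h) (H751.env_s2l h) (g.test i) (g.grad i)
    (g.lip i) (g.rep i) (by linarith) (by positivity) (by positivity) (by positivity) hσ1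
    (fun z hz s hs hs1 => g.lap2 z (hsub hz) s hs hs1 i) (by
      have hK := g.Kρ
      have e : S * ρ ^ 2 * (4 * (σ / ρ ^ 2) + 8 * |K|) = S * (4 * σ + 8 * (|K| * ρ ^ 2)) := by
        field_simp
      rw [e]
      have : S * (4 * σ + 8 * (|K| * ρ ^ 2)) ≤ S * (4 * σ + 8 * σ) := by gcongr
      nlinarith) h3
  exact ⟨x, hx1, hx2⟩

/-- characteristic function of the complement of `ball o r` -/
noncomputable def outF (o : M) (r : ℝ) : M → ℝ := (ball o r)ᶜ.indicator fun _ => 1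

omit [CompleteSpace M] [SecondCountableTopology M] in
theorem outF_meas (o : M) (r : ℝ) : AEStronglyMeasurable (outF o r) m :=
  (stronglyMeasurable_const.indicator isOpen_ball.measurableSet.compl).aestronglyMeasurable

omit [CompleteSpace M] [SecondCountableTopology M] [MeasurableSpace M] [BorelSpace M] in
theorem outF_in {r : ℝ} {z : M} (hz : z ∈ ball o r) : outF o r z = 0 := by
  unfold outF
  rw [indicator_of_notMem]
  simpa using hz

omit [CompleteSpace M] [SecondCountableTopology M] [MeasurableSpace M] [BorelSpace M] in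
theorem outF_out {r : ℝ} {z : M} (hz : z ∉ ball o r) : outF o r z = 1 := by
  unfold outF
  rw [indicator_of_mem]
  exact hz

omit [CompleteSpace M] [SecondCountableTopology M] [MeasurableSpace M] [BorelSpace M] in
theorem outF_abs (o : M) (r : ℝ) (z : M) : 0 ≤ outF o r z ∧ |outF o r z| ≤ 1 := by
  by_cases hz : z ∈ ball o r
  · rw [outF_in hz]; simp
  · rw [outF_out hz]; simp

theorem outF_top (o : M) (r : ℝ) : MemLp (outF o r) ∞ m :=
  memLp_top_of_bound (outF_meas o r) 1 (Eventually.of_forall fun z => by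
    rw [Real.norm_eq_abs]; exact (outF_abs o r z).2)

theorem pt_addT (hp : Ker0 m p) {s : ℝ} (hs : 0 < s) (x : M) {F G : M → ℝ} (hF : MemLp F ∞ m)
    (hG : MemLp G ∞ m) : pt m p s (fun z => F z + G z) x = pt m p s F x + pt m p s G x :=
  H446.pt_add hp hs x (pt_int_top hp hs x hF) (pt_int_top hp hs x hG)

theorem pt_monoT (hp : Ker0 m p) {s : ℝ} (hs : 0 < s) (x : M) {F G : M → ℝ} (hF : MemLp F ∞ m)
    (hG : MemLp G ∞ m) (h : ∀ᵐ z ∂m, F z ≤ G z) : pt m p s F x ≤ pt m p s G x :=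
  pt_mono hp hs x (pt_int_top hp hs x hF) (pt_int_top hp hs x hG) h

/-- the diagonal entries at a good point -/
theorem diag_good (h : Env m n K o A p) {S R₁ σ ρ τ κ : ℝ} {u : Fin n → M →ₘ[m] ℝ} {uu : M → E n}
    (g : H446.Pre m n K o p S R₁ σ ρ u uu) (hS : 1 ≤ S) (hσ : 0 < σ) (i : Fin n) {x : M}
    (hx : 1 - κ < pt m p (S * ρ ^ 2) ((sob m).Γ (u i) (u i)) x)
    (hτ : pt m p (S * ρ ^ 2) (fun z => |outF o (R₁ * ρ) z|) x ≤ τ) :
    pt m p (S * ρ ^ 2) (fun z => |(sob m).Γ (u i) (u i) z - 1|) x ≤ 2 * σ + κ + 6 * τ := by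
  have hρ := g.ρ_pos
  have hp := h.ker
  have hC := H751.env_gamma h
  have hD := hC.toIsDir
  have hs : 0 < S * ρ ^ 2 := by positivity
  have hΓt : MemLp ((sob m).Γ (u i) (u i)) ∞ m := hC.test_Γ_top (g.test i).1
  have hout := outF_top (m := m) o (R₁ * ρ)
  have hdom : ∀ᵐ z ∂m, |(sob m).Γ (u i) (u i) z - 1| ≤
      ((1 + 2 * σ) + (-1) * (sob m).Γ (u i) (u i) z) + 6 * |outF o (R₁ * ρ) z| := by
    filter_upwards [g.up1 i, g.grad i, hD.Γ_nonneg_ae (hC.test_A (g.test i).1).1] with z h1 h2 h3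
    by_cases hz : z ∈ ball o (R₁ * ρ)
    · rw [outF_in hz, abs_zero, mul_zero, add_zero]
      have := h1 hz
      rw [abs_le]
      constructor <;> linarith
    · rw [outF_out hz, abs_one, abs_le]
      constructor <;> linarith
  have m1 : MemLp (fun z => (-1) * (sob m).Γ (u i) (u i) z) ∞ m := hΓt.const_mul _
  have m2 : MemLp (fun z => (1 + 2 * σ) + (-1) * (sob m).Γ (u i) (u i) z) ∞ m :=
    (memLp_top_const (1 + 2 * σ)).add m1
  have m3 : MemLp (fun z => 6 * |outF o (R₁ * ρ) z|) ∞ m := hout.abs.const_mul _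
  have m4 : MemLp (fun z => ((1 + 2 * σ) + (-1) * (sob m).Γ (u i) (u i) z)
    + 6 * |outF o (R₁ * ρ) z|) ∞ m := m2.add m3
  have m5 : MemLp (fun z => |(sob m).Γ (u i) (u i) z - 1|) ∞ m :=
    (hΓt.sub (memLp_top_const 1)).abs
  have a1 := pt_monoT hp hs x m5 m4 hdom
  rw [pt_addT hp hs x m2 m3, pt_addT hp hs x (memLp_top_const (1 + 2 * σ)) m1,
    pt_const hp hs x, H446.pt_const_mul hp, H446.pt_const_mul hp] at a1
  linarith

/-- the off-diagonal entries from the diagonal ones -/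
theorem offdiag (h : Env m n K o A p) {S R₁ σ ρ τ B s : ℝ} {u : Fin n → M →ₘ[m] ℝ} {uu : M → E n}
    (g : H446.Pre m n K o p S R₁ σ ρ u uu) (hσ : 0 < σ) (hs : 0 < s) {x : M}
    (hB : ∀ i, pt m p s (fun z => |(sob m).Γ (u i) (u i) z - 1|) x ≤ B)
    (hτ : pt m p s (fun z => |outF o (R₁ * ρ) z|) x ≤ τ) {i j : Fin n} (hij : i ≠ j) :
    pt m p s (fun z => |(sob m).Γ (u i) (u j) z|) x ≤ B + σ + 4 * τ := by
  have hp := h.ker
  have hC := H751.env_gamma h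
  have hD := hC.toIsDir
  have hW : ∀ i, u i ∈ (sob m).W := fun i => (hC.test_A (g.test i).1).1
  have hΓt : ∀ i j, MemLp ((sob m).Γ (u i) (u j)) ∞ m := fun i j =>
    hD.Γ_memTop (hW i) (hC.test_Γ_top (g.test i).1) (hW j) (hC.test_Γ_top (g.test j).1)
  have hout := outF_top (m := m) o (R₁ * ρ)
  have e1 : (sob m).Γ (u i + u j) (u i + u j) = (sob m).Γ (u i) (u i)
      + (2 : ℝ) • (sob m).Γ (u i) (u j) + (sob m).Γ (u j) (u j) := by
    have := hD.Γ_expand 1 (hW i) (hW j)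
    simpa using this
  have e2 : (sob m).Γ (u i - u j) (u i - u j) = (sob m).Γ (u i) (u i)
      + (-2 : ℝ) • (sob m).Γ (u i) (u j) + (sob m).Γ (u j) (u j) := by
    have := hD.Γ_expand (-1) (hW i) (hW j)
    rw [neg_one_smul, ← sub_eq_add_neg] at this
    rw [this]
    norm_num
  have hdom : ∀ᵐ z ∂m, |(sob m).Γ (u i) (u j) z| ≤
      ((1 / 2 * |(sob m).Γ (u i) (u i) z - 1| + 1 / 2 * |(sob m).Γ (u j) (u j) z - 1|) + σ)
        + 4 * |outF o (R₁ * ρ) z| := by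
    filter_upwards [g.up2 i j hij, g.grad i, g.grad j, hD.Γ_nonneg_ae (hW i),
      hD.Γ_nonneg_ae (hW j), hD.Γ_cs_ae (hW i) (hW j), eq_iff_ae.1 e1, eq_iff_ae.1 e2,
      add_ae ((sob m).Γ (u i) (u i) + (2 : ℝ) • (sob m).Γ (u i) (u j)) ((sob m).Γ (u j) (u j)),
      add_ae ((sob m).Γ (u i) (u i)) ((2 : ℝ) • (sob m).Γ (u i) (u j)),
      smul_ae ((sob m).Γ (u i) (u j)) (2 : ℝ),
      add_ae ((sob m).Γ (u i) (u i) + (-2 : ℝ) • (sob m).Γ (u i) (u j)) ((sob m).Γ (u j) (u j)),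
      add_ae ((sob m).Γ (u i) (u i)) ((-2 : ℝ) • (sob m).Γ (u i) (u j)),
      smul_ae ((sob m).Γ (u i) (u j)) (-2 : ℝ)] with z h1 h2 h3 h4 h5 h6 b1 b2 b3 b4 b5 b6 b7 b8
    have q1 := neg_abs_le ((sob m).Γ (u i) (u i) z - 1)
    have q2 := neg_abs_le ((sob m).Γ (u j) (u j) z - 1)
    have q3 := abs_nonneg ((sob m).Γ (u i) (u i) z - 1)
    have q4 := abs_nonneg ((sob m).Γ (u j) (u j) z - 1)
    by_cases hz : z ∈ ball o (R₁ * ρ)
    · rw [outF_in hz, abs_zero, mul_zero, add_zero]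
      obtain ⟨c1, c2⟩ := h1 hz
      rw [b1, b3, b4, b5] at c1
      rw [b2, b6, b7, b8] at c2
      rw [abs_le]
      constructor <;> linarith
    · rw [outF_out hz, abs_one, mul_one]
      have c1 : |(sob m).Γ (u i) (u j) z| ≤ 4 := by
        refine abs_le_of_sq_le_sq ?_ (by norm_num)
        nlinarith
      linarith
  have m1 : ∀ i, MemLp (fun z => 1 / 2 * |(sob m).Γ (u i) (u i) z - 1|) ∞ m := fun i =>
    ((hΓt i i).sub (memLp_top_const 1)).abs.const_mul _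
  have m2 : MemLp (fun z => 1 / 2 * |(sob m).Γ (u i) (u i) z - 1|
    + 1 / 2 * |(sob m).Γ (u j) (u j) z - 1|) ∞ m := (m1 i).add (m1 j)
  have m3 : MemLp (fun z => (1 / 2 * |(sob m).Γ (u i) (u i) z - 1|
    + 1 / 2 * |(sob m).Γ (u j) (u j) z - 1|) + σ) ∞ m := m2.add (memLp_top_const σ)
  have m4 : MemLp (fun z => 4 * |outF o (R₁ * ρ) z|) ∞ m := hout.abs.const_mul _
  have m5 : MemLp (fun z => ((1 / 2 * |(sob m).Γ (u i) (u i) z - 1|
    + 1 / 2 * |(sob m).Γ (u j) (u j) z - 1|) + σ) + 4 * |outF o (R₁ * ρ) z|) ∞ m := m3.add m4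
  have m6 : MemLp (fun z => |(sob m).Γ (u i) (u j) z|) ∞ m := (hΓt i j).abs
  have a1 := pt_monoT hp hs x m6 m5 hdom
  rw [pt_addT hp hs x m3 m4, pt_addT hp hs x m2 (memLp_top_const σ), pt_addT hp hs x (m1 i) (m1 j),
    pt_const hp hs x, H446.pt_const_mul hp, H446.pt_const_mul hp, H446.pt_const_mul hp] at a1
  have := hB i
  have := hB j
  linarith

/-- **the entries bound** -/
theorem entries (h : Env m n K o A p) {R Q ξ : ℝ} (hR : 1 ≤ R) (hQ : 1 ≤ Q) (hξ : 0 < ξ) :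
    ∃ S R₁ σ₀, Q ≤ S ∧ 8 ≤ R₁ ∧ R ≤ R₁ ∧ 0 < σ₀ ∧ σ₀ ≤ 1 ∧
    ∀ σ ρ (u : Fin n → M →ₘ[m] ℝ) (uu : M → E n), 0 < σ → σ ≤ σ₀ →
      H446.Pre m n K o p S R₁ σ ρ u uu → ∀ x ∈ ball o (R * ρ), ∀ s, ρ ^ 2 / Q ≤ s →
      s ≤ Q * ρ ^ 2 → ∀ i j,
      pt m p s (fun z => |(sob m).Γ (u i) (u j) z - if i = j then 1 else 0|) x ≤ ξ := by
  have hA := env_A h
  obtain ⟨S, hS⟩ : ∃ S, S = 4 * A ^ 2 * Q := ⟨_, rfl⟩
  have hA2 : 1 ≤ A ^ 2 := one_le_pow₀ hA
  have hQS : Q ≤ S := by rw [hS]; nlinarith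
  have hS1 : 1 ≤ S := hQ.trans hQS
  obtain ⟨CH, hCH⟩ : ∃ CH, CH = cG n A (S * Q) ((R + 8) * √Q) * Real.exp (2 * A) := ⟨_, rfl⟩
  have hCH0 : 0 < CH := by
    rw [hCH]
    exact mul_pos (cG_pos hA (by positivity)) (Real.exp_pos _)
  obtain ⟨τ, hτ⟩ : ∃ τ, τ = ξ / (2 * (6 * CH + 4)) := ⟨_, rfl⟩
  have hτ0 : 0 < τ := by rw [hτ]; positivity
  obtain ⟨Ra, hRa, hta⟩ := tail_out h (R := 8) (Q := S) (by norm_num) (by linarith) hτ0
  obtain ⟨Rb, hRb, htb⟩ := tail_out h (R := R) (Q := Q) (by linarith) (by linarith) hτ0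
  obtain ⟨σ₀, hσ₀⟩ : ∃ σ₀, σ₀ = min (1 / (24 * S)) (ξ / (2 * (CH * (2 + 24 * S) + 1))) := ⟨_, rfl⟩
  have hσ₀0 : 0 < σ₀ := by rw [hσ₀]; exact lt_min (by positivity) (by positivity)
  have hσ₀1 : 24 * S * σ₀ ≤ 1 := by
    have : σ₀ ≤ 1 / (24 * S) := by rw [hσ₀]; exact min_le_left _ _
    calc 24 * S * σ₀ ≤ 24 * S * (1 / (24 * S)) := by gcongr
      _ = 1 := by field_simp
  have hσ₀2 : (CH * (2 + 24 * S) + 1) * σ₀ ≤ ξ / 2 := by
    have : σ₀ ≤ ξ / (2 * (CH * (2 + 24 * S) + 1)) := by rw [hσ₀]; exact min_le_right _ _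
    calc (CH * (2 + 24 * S) + 1) * σ₀
        ≤ (CH * (2 + 24 * S) + 1) * (ξ / (2 * (CH * (2 + 24 * S) + 1))) := by gcongr
      _ = ξ / 2 := by field_simp
  refine ⟨S, max (max Ra Rb) 8, σ₀, hQS, le_max_right _ _,
    hRb.trans ((le_max_right _ _).trans (le_max_left _ _)), hσ₀0, by nlinarith, ?_⟩
  intro σ ρ u uu hσ hσσ g x hx s hs1 hs2
  have hRa' : Ra ≤ max (max Ra Rb) 8 := (le_max_left _ _).trans (le_max_left _ _)
  have hRb' : Rb ≤ max (max Ra Rb) 8 := (le_max_right _ _).trans (le_max_left _ _)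
  have hRR : R ≤ max (max Ra Rb) 8 := hRb.trans hRb'
  have h8R : (8 : ℝ) ≤ max (max Ra Rb) 8 := le_max_right _ _
  obtain ⟨R₁, hR₁⟩ : ∃ R₁, R₁ = max (max Ra Rb) 8 := ⟨_, rfl⟩
  rw [← hR₁] at g hRa' hRb' hRR h8R
  have hp := h.ker
  have hC := H751.env_gamma h
  have hρ := g.ρ_pos
  have hQ0 : 0 < Q := by linarith
  have hs : 0 < s := lt_of_lt_of_le (by positivity) hs1
  have hSρ : 0 < S * ρ ^ 2 := by positivity
  have hSs : S * ρ ^ 2 ≤ S * Q * s := by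
    rw [div_le_iff₀ hQ0] at hs1
    have : S * ρ ^ 2 ≤ S * (s * Q) := mul_le_mul_of_nonneg_left hs1 (by linarith)
    linarith
  have hsle : s ≤ 1 := by
    have h1 := g.Sρ
    have h2 : Q * ρ ^ 2 ≤ S * ρ ^ 2 := by gcongr
    linarith
  have hσS : 24 * S * σ ≤ 1 := le_trans (by gcongr) hσ₀1
  have hσ2 : (CH * (2 + 24 * S) + 1) * σ ≤ ξ / 2 := le_trans (by gcongr) hσ₀2
  have hτ2 : (6 * CH + 4) * τ = ξ / 2 := by rw [hτ]; field_simp
  have hxR : dist x o < R * ρ := hx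
  -- diagonal entries
  have hdiag : ∀ i, pt m p s (fun z => |(sob m).Γ (u i) (u i) z - 1|) x ≤
      CH * (2 * σ + 24 * S * σ + 6 * τ) := by
    intro i
    obtain ⟨y, hy1, hy2⟩ := good_pt h g hS1 h8R hσ hσS i
    have hyo : dist y o < 8 * ρ := hy1
    have t1 : pt m p (S * ρ ^ 2) (fun z => |outF o (R₁ * ρ) z|) y ≤ τ := by
      refine (hta R₁ hRa' ρ hρ (S * ρ ^ 2) hSρ (by linarith [g.Sρ]) le_rfl y hyo.le _
        (outF_meas o (R₁ * ρ)) 0 1 le_rfl zero_le_one ?_ ?_).trans (by linarith)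
      · refine Eventually.of_forall fun z hz => ?_
        rw [outF_in hz, abs_zero]
      · exact Eventually.of_forall fun z => (outF_abs o _ z).2
    have a1 := diag_good h g hS1 hσ i hy2 t1
    have hF : MemLp (fun z => (sob m).Γ (u i) (u i) z - 1) ∞ m :=
      (hC.test_Γ_top (g.test i).1).sub (memLp_top_const 1)
    have hdist : dist x y ≤ (R + 8) * √Q * √s := by
      have b1 : dist x y ≤ (R + 8) * ρ := by
        have := dist_triangle x o y
        rw [dist_comm o y] at this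
        linarith
      have b2 : ρ ≤ √Q * √s := by
        rw [← Real.sqrt_mul hQ0.le]
        refine Real.le_sqrt_of_sq_le ?_
        rw [div_le_iff₀ hQ0] at hs1
        linarith
      calc dist x y ≤ (R + 8) * ρ := b1
        _ ≤ (R + 8) * (√Q * √s) := by gcongr
        _ = _ := by ring
    have a2 := pt_harnack hp h.kb (x := x) (x' := y) (Γ := S * Q) (C₀ := (R + 8) * √Q) hs
      (by
        calc 4 * A ^ 2 * s ≤ 4 * A ^ 2 * (Q * ρ ^ 2) := by gcongr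
          _ = S * ρ ^ 2 := by rw [hS]; ring) hSs g.Sρ hdist hF.1
      (pt_int_top hp hSρ y hF)
    refine a2.trans ?_
    have a3 : Real.exp (2 * A * dist x o) ≤ Real.exp (2 * A) := by
      refine Real.exp_le_exp.2 ?_
      have h1 := g.Rρ
      have h2 : R * ρ ≤ R₁ * ρ := by gcongr
      have h3 : dist x o ≤ 1 := by linarith
      nlinarith
    have a4 : 0 ≤ pt m p (S * ρ ^ 2) (fun z => |(sob m).Γ (u i) (u i) z - 1|) y :=
      pt_nonneg hp hSρ y (Eventually.of_forall fun z => abs_nonneg _)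
    have a5 : 0 < cG n A (S * Q) ((R + 8) * √Q) := cG_pos hA (by positivity)
    calc cG n A (S * Q) ((R + 8) * √Q) * Real.exp (2 * A * dist x o) *
          pt m p (S * ρ ^ 2) (fun z => |(sob m).Γ (u i) (u i) z - 1|) y
        ≤ cG n A (S * Q) ((R + 8) * √Q) * Real.exp (2 * A) *
          (2 * σ + 24 * S * σ + 6 * τ) := by gcongr
      _ = _ := by rw [hCH]
  have t2 : pt m p s (fun z => |outF o (R₁ * ρ) z|) x ≤ τ := by
    refine (htb R₁ hRb' ρ hρ s hs hsle hs2 x hxR.le _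
      (outF_meas o (R₁ * ρ)) 0 1 le_rfl zero_le_one ?_ ?_).trans (by linarith)
    · refine Eventually.of_forall fun z hz => ?_
      rw [outF_in hz, abs_zero]
    · exact Eventually.of_forall fun z => (outF_abs o _ z).2
  have hfin : CH * (2 * σ + 24 * S * σ + 6 * τ) + σ + 4 * τ ≤ ξ := by
    have : CH * (2 * σ + 24 * S * σ + 6 * τ) + σ + 4 * τ
        = (CH * (2 + 24 * S) + 1) * σ + (6 * CH + 4) * τ := by ring
    rw [this, hτ2]
    linarith
  intro i j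
  by_cases hij : i = j
  · subst hij
    simp only [if_true]
    refine (hdiag i).trans ?_
    linarith
  · simp only [if_neg hij, sub_zero]
    exact (offdiag h g hσ hs hdiag t2 hij).trans hfin

/-- **Stage 2.** -/
theorem stage2 (h : Env m n K o A p) {R Q η : ℝ} (hR : 1 ≤ R) (hQ : 1 ≤ Q) (hη : 0 < η) :
    ∃ S R₁ σ, 1 ≤ S ∧ 8 ≤ R₁ ∧ 0 < σ ∧ σ ≤ 1 ∧
    ∀ ρ (u : Fin n → M →ₘ[m] ℝ) (uu : M → E n), H446.Pre m n K o p S R₁ σ ρ u uu →
      Cfg m n K o p R Q η ρ u uu := by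
  have := env_sigma h
  have hn1 : 1 ≤ n := by have := h.hyp.two_le; omega
  have hn1' : (1 : ℝ) ≤ n := by exact_mod_cast hn1
  have hC := H751.env_gamma h
  have hp := h.ker
  obtain ⟨η', hη'⟩ : ∃ η', η' = min η 1 := ⟨_, rfl⟩
  have hη'0 : 0 < η' := by rw [hη']; exact lt_min hη one_pos
  have hη'1 : η' ≤ 1 := by rw [hη']; exact min_le_right _ _
  have hη'η : η' ≤ η := by rw [hη']; exact min_le_left _ _
  obtain ⟨ξ, hξ⟩ : ∃ ξ, ξ = (η' / (40 * n ^ 2)) ^ 2 := ⟨_, rfl⟩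
  have hξ0 : 0 < ξ := by rw [hξ]; positivity
  have hξs : √ξ = η' / (40 * n ^ 2) := by rw [hξ]; exact Real.sqrt_sq (by positivity)
  have hξn : n * ξ ≤ η := by
    have h1 : η' / (40 * n ^ 2) ≤ η' := div_le_self hη'0.le (by nlinarith)
    have h2 : n * (η' / (40 * n ^ 2)) ≤ 1 := by
      rw [mul_div_assoc', div_le_one (by positivity)]
      nlinarith
    calc n * ξ = (n * (η' / (40 * n ^ 2))) * (η' / (40 * n ^ 2)) := by rw [hξ]; ring
      _ ≤ 1 * η' := by gcongr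
      _ ≤ η := by linarith
  obtain ⟨S, R₁, σ₀, hQS, h8, hRR, hσ₀, hσ₀1, H⟩ := entries h hR hQ hξ0
  obtain ⟨σ, hσ⟩ : ∃ σ, σ = min σ₀ (η' / (40 * n ^ 2 * Q)) := ⟨_, rfl⟩
  have hσ0 : 0 < σ := by rw [hσ]; exact lt_min hσ₀ (by positivity)
  have hσσ : σ ≤ σ₀ := by rw [hσ]; exact min_le_left _ _
  have hσ1 : σ ≤ 1 := hσσ.trans hσ₀1
  have hσn : 20 * n ^ 2 * (Q * σ) ≤ η' / 2 := by
    have h1 : σ ≤ η' / (40 * n ^ 2 * Q) := by rw [hσ]; exact min_le_right _ _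
    calc 20 * n ^ 2 * (Q * σ) ≤ 20 * n ^ 2 * (Q * (η' / (40 * n ^ 2 * Q))) := by gcongr
      _ = η' / 2 := by field_simp; norm_num
  have hση : σ ≤ η := by
    have h1 : (1 : ℝ) ≤ 20 * n ^ 2 * Q := by nlinarith
    nlinarith
  refine ⟨S, R₁, σ, hQ.trans hQS, h8, hσ0, hσ1, fun ρ u uu g => ?_⟩
  have hρ := g.ρ_pos
  have hsub : ball o (R * ρ) ⊆ ball o (R₁ * ρ) :=
    ball_subset_ball (mul_le_mul_of_nonneg_right hRR hρ.le)
  have hQSρ : Q * ρ ^ 2 ≤ S * ρ ^ 2 := by gcongr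
  have hE := H σ ρ u uu hσ0 hσσ g
  have hKs : ∀ s, s ≤ Q * ρ ^ 2 → |K| * s ≤ 1 := by
    intro s hs
    have h1 := g.Kρ
    have h2 : |K| * s ≤ |K| * (Q * ρ ^ 2) := mul_le_mul_of_nonneg_left hs (abs_nonneg K)
    have h3 : |K| * (Q * ρ ^ 2) ≤ Q * σ := by
      calc |K| * (Q * ρ ^ 2) = Q * (|K| * ρ ^ 2) := by ring
        _ ≤ Q * σ := by gcongr
    have h4 : Q * σ ≤ 20 * n ^ 2 * (Q * σ) := by
      have : (1 : ℝ) ≤ 20 * n ^ 2 := by nlinarith
      have h5 : 0 ≤ Q * σ := by positivity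
      nlinarith
    linarith
  have hspos : ∀ s, ρ ^ 2 / Q ≤ s → 0 < s := fun s hs => lt_of_lt_of_le (by positivity) hs
  refine
    { ρ_pos := hρ
      Rρ := le_trans (mul_le_mul_of_nonneg_right hRR hρ.le) g.Rρ
      Qρ := hQSρ.trans g.Sρ
      Kρ := g.Kρ.trans hση
      test := g.test
      cont := ?_
      rep := g.rep
      grad := g.grad
      lap1 := ?_
      lap2 := ?_
      gram := ?_
      gram1 := ?_
      gam := ?_
      iso := ?_
      dens := ?_ }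
  · have h1 : Continuous fun z => WithLp.ofLp (uu z) := by
      refine continuous_pi fun i => ?_
      obtain ⟨k, hk⟩ := g.lip i
      exact hk.continuous
    exact (PiLp.continuous_toLp 2 _).comp h1
  · intro x hx s hs hs1 i
    rw [H751.PP_eq_pt hp hs x]
    refine (g.lap1 x (hsub hx) s hs (hs1.trans hQSρ) i).trans ?_
    gcongr
  · intro x hx s hs hs1 i
    rw [H751.PP_eq_pt hp hs x]
    refine (g.lap2 x (hsub hx) s hs (hs1.trans hQSρ) i).trans ?_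
    gcongr
  · intro x hx s hs1 hs2 c c'
    refine (gram_of hC hp g.test (hspos s hs1) hξ0.le (hE x hx s hs1 hs2) c c').trans ?_
    gcongr
  · intro x hx s hs1 hs2 c c'
    refine (gram1_of hC hp (fun i => (g.test i).1) (hspos s hs1) hξ0.le
      (hE x hx s hs1 hs2) c c').trans ?_
    gcongr
  · intro x hx s hs1 hs2 c
    have hs := hspos s hs1
    refine (gam_of hC hn1 (H751.env_be h) hp h.kb (env_fin h) g.test g.grad (Q := Q) (D0 := σ)
      (ρ := ρ) hs (by linarith) hρ hs2 (hKs s hs2) hξ0.le hσ0.le (hE x hx s hs1 hs2)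
      (fun i => g.lap2 x (hsub hx) s hs (hs2.trans hQSρ) i) g.Kρ c).trans ?_
    refine mul_le_mul_of_nonneg_right ?_ (sq_nonneg _)
    have h1 : 20 * (n : ℝ) ^ 2 * √ξ = η' / 2 := by
      rw [hξs]; field_simp; norm_num
    have h2 : 20 * (n : ℝ) ^ 2 * (√ξ + Q * σ) = 20 * n ^ 2 * √ξ + 20 * n ^ 2 * (Q * σ) := by ring
    rw [h2, h1]
    linarith
  · intro x hx y hy
    refine (g.iso x (hsub hx) y (hsub hy)).trans ?_
    gcongr
  · intro x hx v hv
    have h1 : R * ρ ≤ R₁ * ρ := mul_le_mul_of_nonneg_right hRR hρ.le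
    obtain ⟨y, hy1, hy2⟩ := g.dens x (ball_subset_ball (by linarith) hx) v (by linarith)
    refine ⟨y, hy1, hy2.trans ?_⟩
    gcongr

end Vale.Agent.P242.H757
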