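import Vale.Agent.P233.H866.CDVol
import Vale.Agent.P242.H607.Dens

/-! P242, row V-APPLY (helper757), pure geometry of the volume ratios of `ℋⁿ` in a noncollapsed
space: the density is at most `2 ^ n` everywhere, and one-scale lower bounds at `p` propagate to
all points near `p` and all smaller scales. -/

open MeasureTheory Measure Metric Set Filter Topology
open scoped ENNReal NNReal

universe u

namespace Vale.Agent.P242.H757

open Vale.Agent.P233.H866

variable {M : Type u} [MetricSpace M] [SecondCountableTopology M] [MeasurableSpace M]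
  [BorelSpace M] {n : ℕ}

/-- The density of `ℋⁿ` is at most `2 ^ n` almost everywhere. -/
theorem ae_th_le (h : CDVol.Hyp (μH[(n : ℝ)] : Measure M) n) (hn : 0 < n) :
    ∀ᵐ x ∂(μH[(n : ℝ)] : Measure M), h.th x ≤ 2 ^ n := by
  rcases isEmpty_or_nonempty M with hE | ⟨⟨x₀⟩⟩
  · exact Filter.Eventually.of_forall fun x => (hE.false x).elim
  have hloc : IsLocallyFiniteMeasure (μH[(n : ℝ)] : Measure M) :=
    ⟨fun x => ⟨ball x 1, ball_mem_nhds x one_pos, h.fin x 1⟩⟩
  have hn' : (0 : ℝ) < n := by exact_mod_cast hn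
  have key := H607.ae_upper_density (X := M) hn' (ι := ℕ) (fun i => ball x₀ i)
    (fun x => by
      obtain ⟨i, hi⟩ := exists_nat_gt (dist x x₀)
      exact ⟨i, hi⟩)
    (fun i => (h.fin x₀ i).ne)
    (fun i => by
      obtain ⟨c, hc0, hc⟩ := h.doubling_one x₀ i
      have h0 : ∀ x ∈ ball x₀ (i : ℝ), ∀ r, 0 < r → r ≤ 1 →
          (μH[(n : ℝ)] : Measure M) (ball x (2 * r)) ≤
            ENNReal.ofReal c * (μH[(n : ℝ)] : Measure M) (ball x r) := by
        intro x hx r hr hr1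
        have h1 := hc x hx r hr hr1
        rw [Measure.real, Measure.real] at h1
        rw [← ENNReal.ofReal_toReal (h.fin x (2 * r)).ne, ← ENNReal.ofReal_toReal (h.fin x r).ne,
          ← ENNReal.ofReal_mul hc0.le]
        exact ENNReal.ofReal_le_ofReal h1
      refine ⟨(c * c).toNNReal, 1 / 2, by norm_num, fun x hx r hr hr1 => ?_⟩
      have h1 := h0 x hx (2 * r) (by linarith) (by linarith)
      have h2 := h0 x hx r hr (by linarith)
      calc (μH[(n : ℝ)] : Measure M) (closedBall x (3 * r))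
          ≤ (μH[(n : ℝ)] : Measure M) (ball x (2 * (2 * r))) :=
            measure_mono (closedBall_subset_ball (by linarith))
        _ ≤ ENNReal.ofReal c * (ENNReal.ofReal c * (μH[(n : ℝ)] : Measure M) (ball x r)) :=
            h1.trans (mul_le_mul_right h2 _)
        _ ≤ ENNReal.ofReal c * (ENNReal.ofReal c * (μH[(n : ℝ)] : Measure M) (closedBall x r)) := by
            gcongr
            exact ball_subset_closedBall
        _ = _ := by
            rw [← mul_assoc, ← ENNReal.ofReal_mul hc0.le]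
            rfl)
  filter_upwards [key] with x hx
  refine le_of_forall_pos_le_add fun e he => ?_
  obtain ⟨ε, hε, hx⟩ := hx (e / 2 ^ n) (by positivity)
  refine le_of_tendsto (h.tendsto_th x) ?_
  filter_upwards [Ioc_mem_nhdsGT hε] with r hr
  have h1 := hx r hr.1 hr.2
  have h2 : (μH[(n : ℝ)] : Measure M).real (ball x r) ≤ (1 + e / 2 ^ n) * (2 * r) ^ n := by
    rw [Real.rpow_natCast] at h1
    have h3 : (μH[(n : ℝ)] : Measure M) (ball x r) ≤
        ENNReal.ofReal ((1 + e / 2 ^ n) * (2 * r) ^ n) :=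
      (measure_mono ball_subset_closedBall).trans h1
    have hr0 : 0 < r := hr.1
    refine (ENNReal.toReal_mono ENNReal.ofReal_ne_top h3).trans (le_of_eq ?_)
    rw [ENNReal.toReal_ofReal]
    positivity
  rw [div_le_iff₀ (pow_pos hr.1 n)]
  refine h2.trans (le_of_eq ?_)
  rw [mul_pow]
  field_simp

/-- Upper bound for the volume ratios at all points and small scales. -/
theorem ratio_upper (h : CDVol.Hyp (μH[(n : ℝ)] : Measure M) n) (hn : 0 < n) {δ : ℝ} (hδ : 0 < δ) :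
    ∃ R₀ : ℝ, 0 < R₀ ∧ ∀ (y : M) (t : ℝ), 0 < t → t ≤ R₀ →
      (μH[(n : ℝ)] : Measure M).real (ball y t) ≤ (1 + δ) * (2 * t) ^ n := by
  obtain ⟨R₁, hR₁, hr⟩ := h.ratio (Q := (1 + δ)⁻¹) (by positivity) (inv_lt_one_of_one_lt₀ (by linarith))
  -- at the points of density at most `2 ^ n`
  have h1 : ∀ y : M, h.th y ≤ 2 ^ n → ∀ t : ℝ, 0 < t → t ≤ R₁ →
      (μH[(n : ℝ)] : Measure M).real (ball y t) ≤ (1 + δ) * (2 * t) ^ n := by
    intro y hy t ht htR
    have h2 : (1 + δ)⁻¹ * ((μH[(n : ℝ)] : Measure M).real (ball y t) / t ^ n) ≤ h.th y := by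
      refine ge_of_tendsto (h.tendsto_th y) ?_
      filter_upwards [Ioc_mem_nhdsGT ht] with s hs
      exact hr y s t hs.1 hs.2 htR
    have h3 := h2.trans hy
    rw [inv_mul_le_iff₀ (by positivity), div_le_iff₀ (by positivity)] at h3
    refine h3.trans (le_of_eq ?_)
    rw [mul_pow]; ring
  refine ⟨R₁ / 2, by positivity, fun y t ht htR => ?_⟩
  -- approximate `y`
  have hdense : ∀ η : ℝ, 0 < η → ∃ y' : M, dist y' y < η ∧ h.th y' ≤ 2 ^ n := by
    intro η hη
    by_contra hcon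
    push Not at hcon
    have h2 : ball y η ⊆ {x | ¬ h.th x ≤ 2 ^ n} := fun x hx => not_le.2 (hcon x hx)
    have h3 := measure_mono (μ := (μH[(n : ℝ)] : Measure M)) h2
    rw [ae_iff.1 (ae_th_le h hn)] at h3
    exact absurd (h.pos y η hη) (not_lt.2 h3)
  have h2 : ∀ η : ℝ, 0 < η → η ≤ R₁ / 2 →
      (μH[(n : ℝ)] : Measure M).real (ball y t) ≤ (1 + δ) * (2 * (t + η)) ^ n := by
    intro η hη hη2
    obtain ⟨y', hy', hy2⟩ := hdense η hη
    refine le_trans ?_ (h1 y' hy2 (t + η) (by linarith) (by linarith))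
    refine measureReal_mono (fun z hz => ?_) (h.fin _ _).ne
    rw [mem_ball] at *
    have := dist_triangle z y y'
    rw [dist_comm y y'] at this
    linarith
  have h3 : Tendsto (fun η : ℝ => (1 + δ) * (2 * (t + η)) ^ n) (𝓝[>] 0)
      (𝓝 ((1 + δ) * (2 * (t + 0)) ^ n)) := by
    have : Continuous fun η : ℝ => (1 + δ) * (2 * (t + η)) ^ n := by fun_prop
    exact (this.tendsto 0).mono_left nhdsWithin_le_nhds
  rw [add_zero] at h3
  refine ge_of_tendsto h3 ?_
  filter_upwards [Ioc_mem_nhdsGT (show 0 < R₁ / 2 by positivity)] with η hη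
  exact h2 η hη.1 hη.2

/-- One-scale lower bounds at `p` at arbitrarily small scales propagate to all points near `p` and
to all small scales. -/
theorem ratio_lower (h : CDVol.Hyp (μH[(n : ℝ)] : Measure M) n) (p : M)
    (hlow : ∀ δ : ℝ, 0 < δ → ∀ r₀ : ℝ, 0 < r₀ → ∃ r : ℝ, 0 < r ∧ r < r₀ ∧
      (1 - δ) * (2 * r) ^ n ≤ (μH[(n : ℝ)] : Measure M).real (closedBall p r))
    {δ : ℝ} (hδ : 0 < δ) :
    ∃ R₀ : ℝ, 0 < R₀ ∧ ∀ y ∈ ball p R₀, ∀ t : ℝ, 0 < t → t ≤ R₀ →
      (1 - δ) * (2 * t) ^ n ≤ (μH[(n : ℝ)] : Measure M).real (ball y t) := by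
  rcases le_or_gt 1 δ with hδ1 | hδ1
  · refine ⟨1, one_pos, fun y _ t ht _ => ?_⟩
    have : 0 ≤ (2 * t) ^ n := by positivity
    have h2 : 0 ≤ (μH[(n : ℝ)] : Measure M).real (ball y t) := measureReal_nonneg
    nlinarith
  obtain ⟨R₁, hR₁, hr⟩ := h.ratio (Q := 1 - δ / 2) (by linarith) (by linarith)
  -- choose `η` with `(1 - η) / (1 + 2 η) ^ n ≥ 1 - δ / 2`
  obtain ⟨η, hη0, hη1, hη⟩ : ∃ η : ℝ, 0 < η ∧ η < 1 ∧
      (1 - δ / 2) * (1 + 2 * η) ^ n ≤ 1 - η := by
    have h1 : Tendsto (fun η : ℝ => 1 - η - (1 - δ / 2) * (1 + 2 * η) ^ n) (𝓝[>] 0)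
        (𝓝 (1 - 0 - (1 - δ / 2) * (1 + 2 * 0) ^ n)) := by
      have : Continuous fun η : ℝ => 1 - η - (1 - δ / 2) * (1 + 2 * η) ^ n := by fun_prop
      exact (this.tendsto 0).mono_left nhdsWithin_le_nhds
    have h2 : (0 : ℝ) < 1 - 0 - (1 - δ / 2) * (1 + 2 * 0) ^ n := by
      rw [mul_zero, add_zero, one_pow]; linarith
    have h3 := (h1.eventually (lt_mem_nhds h2)).and (Ioo_mem_nhdsGT (show (0 : ℝ) < 1 by norm_num))
    obtain ⟨η, ha, hb⟩ := h3.exists
    exact ⟨η, hb.1, hb.2, by linarith⟩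
  obtain ⟨r, hr0, hrR, hlr⟩ := hlow η hη0 (R₁ / 3) (by positivity)
  refine ⟨η * r, by positivity, fun y hy t ht htR => ?_⟩
  have hR : (1 + 2 * η) * r ≤ R₁ := by nlinarith
  have htR' : t ≤ (1 + 2 * η) * r := by nlinarith
  have h1 := hr y t ((1 + 2 * η) * r) ht htR' hR
  have h2 : (1 - η) * (2 * r) ^ n ≤
      (μH[(n : ℝ)] : Measure M).real (ball y ((1 + 2 * η) * r)) := by
    refine hlr.trans (measureReal_mono (fun z hz => ?_) (h.fin _ _).ne)
    rw [mem_closedBall] at hz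
    rw [mem_ball] at *
    have := dist_triangle z p y
    rw [dist_comm p y] at this
    have h3 : 0 < η * r := by positivity
    nlinarith
  have h3 : (1 - δ / 2) * 2 ^ n ≤
      (μH[(n : ℝ)] : Measure M).real (ball y ((1 + 2 * η) * r)) / ((1 + 2 * η) * r) ^ n := by
    rw [le_div_iff₀ (by positivity)]
    refine le_trans ?_ h2
    calc (1 - δ / 2) * 2 ^ n * ((1 + 2 * η) * r) ^ n
        = ((1 - δ / 2) * (1 + 2 * η) ^ n) * (2 * r) ^ n := by rw [mul_pow, mul_pow]; ring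
      _ ≤ (1 - η) * (2 * r) ^ n := mul_le_mul_of_nonneg_right hη (by positivity)
  have h4 : (1 - δ) * 2 ^ n ≤ (μH[(n : ℝ)] : Measure M).real (ball y t) / t ^ n := by
    refine le_trans ?_ ((mul_le_mul_of_nonneg_left h3 (by linarith)).trans h1)
    have : (0 : ℝ) < 2 ^ n := by positivity
    nlinarith [mul_pos hδ hδ]
  rw [le_div_iff₀ (by positivity)] at h4
  refine le_trans (le_of_eq ?_) h4
  rw [mul_pow]; ring

/-- Volume ratios near a point with one-scale lower bounds at arbitrarily small scales. -/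
theorem ratio_near (h : CDVol.Hyp (μH[(n : ℝ)] : Measure M) n) (hn : 0 < n) (p : M)
    (hlow : ∀ δ : ℝ, 0 < δ → ∀ r₀ : ℝ, 0 < r₀ → ∃ r : ℝ, 0 < r ∧ r < r₀ ∧
      (1 - δ) * (2 * r) ^ n ≤ (μH[(n : ℝ)] : Measure M).real (closedBall p r))
    {δ : ℝ} (hδ : 0 < δ) :
    ∃ R₀ : ℝ, 0 < R₀ ∧ ∀ y ∈ ball p R₀,
      ((1 - δ) * 2 ^ n ≤ h.th y ∧ h.th y ≤ 2 ^ n) ∧ ∀ t : ℝ, 0 < t → t ≤ R₀ →
      (1 - δ) * (2 * t) ^ n ≤ (μH[(n : ℝ)] : Measure M).real (ball y t) ∧
      (μH[(n : ℝ)] : Measure M).real (ball y t) ≤ (1 + δ) * (2 * t) ^ n := by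
  obtain ⟨R₁, hR₁, h1⟩ := ratio_upper h hn hδ
  obtain ⟨R₂, hR₂, h2⟩ := ratio_lower h p hlow hδ
  refine ⟨min R₁ R₂, lt_min hR₁ hR₂, fun y hy => ⟨⟨?_, ?_⟩, fun t ht htR =>
    ⟨h2 y (ball_subset_ball (min_le_right _ _) hy) t ht (htR.trans (min_le_right _ _)),
      h1 y t ht (htR.trans (min_le_left _ _))⟩⟩⟩
  · refine ge_of_tendsto (h.tendsto_th y) ?_
    filter_upwards [Ioc_mem_nhdsGT hR₂] with t ht
    have := h2 y (ball_subset_ball (min_le_right _ _) hy) t ht.1 ht.2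
    rw [le_div_iff₀ (pow_pos ht.1 n)]
    refine le_trans (le_of_eq ?_) this
    rw [mul_pow]; ring
  · refine le_of_forall_pos_le_add fun e he => ?_
    obtain ⟨R₃, hR₃, h3⟩ := ratio_upper h hn (δ := e / 2 ^ n) (by positivity)
    refine le_of_tendsto (h.tendsto_th y) ?_
    filter_upwards [Ioc_mem_nhdsGT hR₃] with t ht
    have := h3 y t ht.1 ht.2
    rw [div_le_iff₀ (pow_pos ht.1 n)]
    refine this.trans (le_of_eq ?_)
    rw [mul_pow]
    field_simp

end Vale.Agent.P242.H757
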