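import Vale.Agent.P242.H373.AEDefs

/-! P242 (helper757): geometry of a point with almost Euclidean small balls: far away points in all
directions whose distance functions are almost linear in a Gromov-Hausdorff approximation. -/

open Metric Set Filter Topology
open scoped RealInnerProductSpace

universe u

namespace Vale.Agent.P242.H757

/-- `|a ξ - w|` is almost `a - ⟪ξ, w⟫` for `|w| ≪ a`. -/
theorem far_dist {E : Type*} [NormedAddCommGroup E] [InnerProductSpace ℝ E] {ξ w : E} {a : ℝ}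
    (hξ : ‖ξ‖ = 1) (ha : 0 < a) (hw : ‖w‖ ≤ a / 2) :
    a - ⟪ξ, w⟫ ≤ ‖a • ξ - w‖ ∧ ‖a • ξ - w‖ ≤ a - ⟪ξ, w⟫ + ‖w‖ ^ 2 / a := by
  have h1 : ‖a • ξ - w‖ ^ 2 = a ^ 2 - 2 * a * ⟪ξ, w⟫ + ‖w‖ ^ 2 := by
    rw [norm_sub_sq_real, norm_smul, hξ, real_inner_smul_left, Real.norm_eq_abs, mul_one, sq_abs]
    ring
  have h2 : |⟪ξ, w⟫| ≤ ‖w‖ := by
    have := abs_real_inner_le_norm ξ w
    rwa [hξ, one_mul] at this
  have h3 := abs_le.1 h2
  have h4 : ⟪ξ, w⟫ ^ 2 ≤ ‖w‖ ^ 2 := by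
    rw [← sq_abs]
    exact pow_le_pow_left₀ (abs_nonneg _) h2 2
  have h0 : 0 ≤ ‖w‖ := norm_nonneg w
  refine ⟨?_, ?_⟩
  · refine abs_le_of_sq_le_sq' ?_ (norm_nonneg _) |>.2
    rw [h1]
    nlinarith
  · refine abs_le_of_sq_le_sq' ?_ ?_ |>.2
    · rw [h1]
      have h5 : 0 ≤ ‖w‖ ^ 2 / a := by positivity
      have h6 : (a - ⟪ξ, w⟫) * (‖w‖ ^ 2 / a) ≥ ‖w‖ ^ 2 / 2 := by
        have : a / 2 ≤ a - ⟪ξ, w⟫ := by linarith [h3.2]
        calc ‖w‖ ^ 2 / 2 = a / 2 * (‖w‖ ^ 2 / a) := by field_simp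
          _ ≤ _ := mul_le_mul_of_nonneg_right this h5
      nlinarith [sq_nonneg ⟪ξ, w⟫, sq_nonneg (‖w‖ ^ 2 / a)]
    · have h5 : 0 ≤ ‖w‖ ^ 2 / a := by positivity
      linarith [h3.2]

/-- Far away points in all directions. -/
theorem geo_points {X : Type u} [MetricSpace X] {n : ℕ} {p : X}
    (hp : ∀ η : ℝ, 0 < η → ∀ r₀ : ℝ, 0 < r₀ → ∃ r, 0 < r ∧ r < r₀ ∧ H373.GHClose n η p r)
    {η Q L : ℝ} (hη : 0 < η) (hη1 : η ≤ 1) (hQ : 1 ≤ Q) (hL : 4 * (Q + 1) ^ 2 ≤ η * L)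
    {r₀ : ℝ} (hr₀ : 0 < r₀) :
    ∃ (ρ : ℝ) (φ : X → EuclideanSpace ℝ (Fin n)), 0 < ρ ∧ ρ < r₀ ∧ φ p = 0 ∧
      (∀ y ∈ ball p (2 * L * ρ), ∀ z ∈ ball p (2 * L * ρ),
        |dist (φ y) (φ z) - dist y z| ≤ η * ρ) ∧
      (∀ w : EuclideanSpace ℝ (Fin n), ‖w‖ < 2 * L * ρ →
        ∃ y ∈ ball p (2 * L * ρ), dist (φ y) w ≤ η * ρ) ∧
      ∀ ξ : EuclideanSpace ℝ (Fin n), ‖ξ‖ = 1 → ∃ q : X, |dist q p - L * ρ| ≤ η * ρ ∧
        ∀ z ∈ ball p (Q * ρ), |dist q z - (L * ρ - ⟪ξ, φ z⟫)| ≤ η * ρ := by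
  have hL0 : 0 < L := by
    have : 0 < 4 * (Q + 1) ^ 2 := by positivity
    by_contra hcon
    push Not at hcon
    nlinarith
  have hLQ : 4 * (Q + 1) ≤ L := by
    have : 4 * (Q + 1) ^ 2 ≤ L := hL.trans (by nlinarith)
    nlinarith
  obtain ⟨r, hr0, hr, f, hf1, hf2⟩ := hp (η / (8 * L)) (by positivity) (min r₀ 1)
    (lt_min hr₀ one_pos)
  obtain ⟨ρ, hρdef⟩ : ∃ ρ, ρ = r / (2 * L) := ⟨_, rfl⟩
  have hρ0 : 0 < ρ := by rw [hρdef]; positivity
  have hrρ : 2 * L * ρ = r := by rw [hρdef]; field_simp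
  have hηr : η / (8 * L) * r = η * ρ / 4 := by rw [← hrρ]; field_simp; norm_num
  rw [hηr] at hf1 hf2
  have hρη : η * ρ / 4 ≤ η * ρ := by nlinarith [mul_pos hη hρ0]
  have hρr : ρ < r₀ := by
    have h1 : ρ ≤ r := by
      rw [← hrρ]
      nlinarith
    exact h1.trans_lt (hr.trans_le (min_le_left _ _))
  have hpr : p ∈ ball p r := mem_ball_self hr0
  refine ⟨ρ, fun z => f z - f p, hρ0, hρr, sub_self _, ?_, ?_, ?_⟩
  · intro y hy z hz
    rw [hrρ] at hy hz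
    rw [dist_sub_right]
    exact (hf1 y hy z hz).trans hρη
  · intro w hw
    rw [hrρ] at hw ⊢
    obtain ⟨y, hy, hyw⟩ := hf2 (f p + w) (by rw [mem_ball, dist_eq_norm]; simpa using hw)
    refine ⟨y, hy, ?_⟩
    have : dist (f y - f p) w = dist (f y) (f p + w) := by
      rw [dist_eq_norm, dist_eq_norm]; congr 1; abel
    rw [this]
    exact hyw.trans hρη
  · intro ξ hξ
    have hLρ : 0 < L * ρ := by positivity
    obtain ⟨q, hq, hqw⟩ := hf2 (f p + (L * ρ) • ξ) (by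
      rw [mem_ball, dist_eq_norm, add_sub_cancel_left, norm_smul, hξ, mul_one,
        Real.norm_of_nonneg hLρ.le, ← hrρ]
      linarith)
    have key : ∀ z ∈ ball p (Q * ρ), |dist q z - (L * ρ - ⟪ξ, f z - f p⟫)| ≤ η * ρ := by
      intro z hz
      have hzr : z ∈ ball p r := by
        refine ball_subset_ball ?_ hz
        rw [← hrρ]
        nlinarith
      have h1 := hf1 q hq z hzr
      have h2 := hf1 z hzr p hpr
      have h3 : ‖f z - f p‖ ≤ (Q + 1) * ρ := by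
        rw [← dist_eq_norm]
        rw [mem_ball] at hz
        rw [abs_le] at h2
        nlinarith
      have h4 := far_dist (ξ := ξ) (w := f z - f p) (a := L * ρ) hξ hLρ
        (h3.trans (by nlinarith))
      have h5 : ‖f z - f p‖ ^ 2 / (L * ρ) ≤ η * ρ / 4 := by
        rw [div_le_iff₀ hLρ]
        calc ‖f z - f p‖ ^ 2 ≤ ((Q + 1) * ρ) ^ 2 := pow_le_pow_left₀ (norm_nonneg _) h3 2
          _ = (4 * (Q + 1) ^ 2) * ρ ^ 2 / 4 := by ring
          _ ≤ (η * L) * ρ ^ 2 / 4 := by gcongr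
          _ = _ := by ring
      have h6 : |dist (f q) (f z) - ‖(L * ρ) • ξ - (f z - f p)‖| ≤ η * ρ / 4 := by
        have e1 : ‖(L * ρ) • ξ - (f z - f p)‖ = dist (f p + (L * ρ) • ξ) (f z) := by
          rw [dist_eq_norm]; congr 1; abel
        rw [e1]
        have := abs_dist_sub_le (f q) (f p + (L * ρ) • ξ) (f z)
        exact this.trans hqw
      rw [abs_le] at h1 h6 ⊢
      constructor <;> nlinarith [h1.1, h1.2, h6.1, h6.2, h4.1, h4.2, h5, mul_pos hη hρ0]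
    refine ⟨q, ?_, key⟩
    have := key p (mem_ball_self (by positivity))
    rwa [sub_self, inner_zero_right, sub_zero] at this

end Vale.Agent.P242.H757
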