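import Mathlib.Analysis.InnerProductSpace.PiL2

/-! P242, A-MAPS (helper757): near isometry and density of the almost harmonic maps from the
geometric output `geo_points` (fields `iso` and `dens` of `H71.Cfg`). -/

open Metric Set Filter Topology
open scoped RealInnerProductSpace

universe u

namespace Vale.Agent.P242.H757

theorem norm_le_sqrt_mul {n : ℕ} {w : EuclideanSpace ℝ (Fin n)} {b : ℝ} (hb : 0 ≤ b)
    (h : ∀ i, |w i| ≤ b) : ‖w‖ ≤ √n * b := by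
  rw [EuclideanSpace.norm_eq]
  have h1 : ∑ i : Fin n, ‖w i‖ ^ 2 ≤ n * b ^ 2 := by
    calc ∑ i : Fin n, ‖w i‖ ^ 2 ≤ ∑ _i : Fin n, b ^ 2 :=
          Finset.sum_le_sum fun i _ => pow_le_pow_left₀ (norm_nonneg _) (h i) 2
      _ = n * b ^ 2 := by simp
  refine (Real.sqrt_le_sqrt h1).trans ?_
  rw [Real.sqrt_mul (Nat.cast_nonneg n), Real.sqrt_sq hb]

/-- ISO and DENS at one scale. -/
theorem iso_dens {X : Type u} [MetricSpace X] {n : ℕ} {o : X}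
    {φ uu : X → EuclideanSpace ℝ (Fin n)} {L η₁ ρ R Q₁ a η : ℝ}
    (hρ : 0 < ρ) (hη₁ : 0 ≤ η₁) (ha : 0 ≤ a) (hR : 0 < R) (hφ : φ o = 0)
    (h1 : ∀ y ∈ ball o (2 * L * ρ), ∀ z ∈ ball o (2 * L * ρ),
      |dist (φ y) (φ z) - dist y z| ≤ η₁ * ρ)
    (h2 : ∀ w : EuclideanSpace ℝ (Fin n), ‖w‖ < 2 * L * ρ →
      ∃ y ∈ ball o (2 * L * ρ), dist (φ y) w ≤ η₁ * ρ)
    (hRQ : 2 * R + 2 ≤ Q₁) (hQL : Q₁ ≤ 2 * L) (c0 : EuclideanSpace ℝ (Fin n))
    (hu : ∀ z ∈ ball o (Q₁ * ρ), ∀ i, |uu z i - (φ z i + c0 i)| ≤ a * ρ)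
    (hη : (2 * √n + 2) * (η₁ + a) ≤ η) (hη1 : η ≤ 1) :
    (∀ x ∈ ball o (R * ρ), ∀ y ∈ ball o (R * ρ), |dist (uu x) (uu y) - dist x y| ≤ η * ρ) ∧
    ∀ x ∈ ball o (R * ρ / 2), ∀ v : EuclideanSpace ℝ (Fin n), ‖v‖ ≤ R * ρ / 4 →
      ∃ y, dist x y ≤ 2 * ‖v‖ + ρ ∧ ‖uu y - uu x - v‖ ≤ η * ρ := by
  have hs : 0 ≤ √(n : ℝ) := Real.sqrt_nonneg _
  have hRρ : 0 < R * ρ := mul_pos hR hρ
  have hη' : 2 * √n * a + 2 * η₁ ≤ η := by nlinarith [mul_nonneg hs hη₁]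
  have hη₁' : 2 * η₁ ≤ 1 := by
    have : 0 ≤ 2 * √n * a := by positivity
    linarith
  have hu' : ∀ z ∈ ball o (Q₁ * ρ), ‖uu z - (φ z + c0)‖ ≤ √n * (a * ρ) := fun z hz =>
    norm_le_sqrt_mul (by positivity) fun i => by simpa using hu z hz i
  have key : ∀ x ∈ ball o (Q₁ * ρ), ∀ y ∈ ball o (Q₁ * ρ),
      ‖(uu y - uu x) - (φ y - φ x)‖ ≤ 2 * √n * a * ρ := by
    intro x hx y hy
    have e : (uu y - uu x) - (φ y - φ x) = (uu y - (φ y + c0)) - (uu x - (φ x + c0)) := by abel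
    rw [e]
    refine (norm_sub_le _ _).trans ?_
    linarith [hu' x hx, hu' y hy]
  have hsub : ∀ r, r ≤ R * ρ → ball o r ⊆ ball o (Q₁ * ρ) := fun r hr =>
    ball_subset_ball (hr.trans (by nlinarith))
  have hsub2 : ball o (Q₁ * ρ) ⊆ ball o (2 * L * ρ) := ball_subset_ball (by nlinarith)
  refine ⟨fun x hx y hy => ?_, fun x hx v hv => ?_⟩
  · have hx1 := hsub _ le_rfl hx
    have hy1 := hsub _ le_rfl hy
    have k1 := key y hy1 x hx1
    have k2 := h1 x (hsub2 hx1) y (hsub2 hy1)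
    have k3 : |dist (uu x) (uu y) - dist (φ x) (φ y)| ≤ 2 * √n * a * ρ := by
      rw [dist_eq_norm, dist_eq_norm]
      exact (abs_norm_sub_norm_le _ _).trans k1
    calc |dist (uu x) (uu y) - dist x y|
        ≤ |dist (uu x) (uu y) - dist (φ x) (φ y)| + |dist (φ x) (φ y) - dist x y| :=
          abs_sub_le _ _ _
      _ ≤ 2 * √n * a * ρ + η₁ * ρ := add_le_add k3 k2
      _ ≤ η * ρ := by nlinarith
  · have hx1 : x ∈ ball o (Q₁ * ρ) := hsub (R * ρ / 2) (by linarith) hx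
    have hoL : o ∈ ball o (2 * L * ρ) := mem_ball_self (by nlinarith)
    have hx2 := hsub2 hx1
    have hxo : dist x o < R * ρ / 2 := hx
    have n1 : ‖φ x‖ ≤ R * ρ / 2 + η₁ * ρ := by
      have := h1 x hx2 o hoL
      rw [hφ, dist_zero_right] at this
      linarith [(abs_le.1 this).2]
    have n2 : ‖φ x + v‖ < 2 * L * ρ := by
      refine (norm_add_le _ _).trans_lt ?_
      nlinarith
    obtain ⟨y, hy, hyw⟩ := h2 _ n2
    have d1 : dist (φ x) (φ y) ≤ ‖v‖ + η₁ * ρ := by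
      have : dist (φ x) (φ x + v) = ‖v‖ := by simp
      linarith [dist_triangle (φ x) (φ x + v) (φ y), dist_comm (φ x + v) (φ y)]
    have d2 : dist x y ≤ ‖v‖ + 2 * (η₁ * ρ) := by
      have := (abs_le.1 (h1 x hx2 y hy)).1
      linarith
    have hyQ : y ∈ ball o (Q₁ * ρ) := by
      rw [mem_ball]
      have := dist_triangle y x o
      rw [dist_comm y x] at this
      nlinarith
    refine ⟨y, by nlinarith [norm_nonneg v], ?_⟩
    have e : uu y - uu x - v = ((uu y - uu x) - (φ y - φ x)) + (φ y - (φ x + v)) := by abel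
    rw [e]
    refine (norm_add_le _ _).trans ?_
    have k1 := key x hx1 y hyQ
    rw [dist_eq_norm] at hyw
    nlinarith

end Vale.Agent.P242.H757
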