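import Vale.Agent.P242.H990.Cons
import Vale.Agent.P242.H751.SS

/-! P242, A-MAPS (helper757), part 1: tails of the heat kernel at scale `ρ`, and the heat kernel
tested with functions that are small near `o`. -/

set_option linter.all false

open MeasureTheory Filter Topology Set Metric
open scoped ENNReal NNReal MeasureTheory

universe u

namespace Vale.Agent.P242.H757

open Vale.Agent.P233 Vale.Agent.P233.RA Vale.Agent.P242.H71 Vale.Agent.P242.H990
  Vale.Agent.P242.H520

variable {M : Type u} [MetricSpace M] [CompleteSpace M] [SecondCountableTopology M]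
  [MeasurableSpace M] [BorelSpace M] {m : Measure M} {n : ℕ} {K : ℝ} {o : M} {A : ℝ}
  {p : ℝ → M → M → ℝ}

/-- tails: functions that are `≤ a` on `ball o (R₁ ρ)` and of exponential growth at scale `ρ`. -/
theorem tail_gen (h : Env m n K o A p) {c R Q : ℝ} (hc : 0 ≤ c) (hR : 0 ≤ R) (hQ : 0 < Q) :
    ∃ C : ℝ, 1 ≤ C ∧ ∀ ρ, 0 < ρ → ∀ s, 0 < s → s ≤ 1 → s ≤ Q * ρ ^ 2 → ∀ x, dist x o ≤ R * ρ →
      ∀ R₁, R ≤ R₁ → ∀ F : M → ℝ, AEStronglyMeasurable F m → ∀ a b : ℝ, 0 ≤ a → 0 ≤ b →
      (∀ᵐ z ∂m, dist z o < R₁ * ρ → |F z| ≤ a) →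
      (∀ᵐ z ∂m, |F z| ≤ b * Real.exp (c * (dist z o / ρ))) →
      Integrable (fun z => p s x z * F z) m ∧
      pt m p s (fun z => |F z|) x ≤ a + b * C * Real.exp (-((R₁ - R) ^ 2 / (32 * Q))) := by
  obtain ⟨C, hC1, hC⟩ := H751.tail_cd (H751.hyp_of h.hyp) h.ker (c * √Q) (by positivity)
  refine ⟨Real.exp (c * R) * C, ?_, ?_⟩
  · have : 1 ≤ Real.exp (c * R) := Real.one_le_exp (by positivity)
    nlinarith
  intro ρ hρ s hs hs1 hsQ x hx R₁ hR₁ F hF a b ha hb h1 h2
  have hp := h.ker
  have hss : 0 < √s := Real.sqrt_pos.2 hs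
  have hsr : √s ≤ √Q * ρ := by
    rw [← Real.sqrt_sq hρ.le, ← Real.sqrt_mul hQ.le]
    exact Real.sqrt_le_sqrt hsQ
  have hr : 0 ≤ (R₁ - R) * ρ := mul_nonneg (by linarith) hρ.le
  obtain ⟨i1, i2⟩ := hC s hs hs1 x ((R₁ - R) * ρ) hr
  set E : M → ℝ := fun z => Real.exp (c * √Q * (dist x z / √s)) with hE
  set S : Set M := {z | (R₁ - R) * ρ ≤ dist x z} with hS
  have hSm : MeasurableSet S := (isClosed_le continuous_const (by fun_prop)).measurableSet
  have p0 : ∀ z, 0 ≤ p s x z := hp.nonneg s hs x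
  have hexp : ∀ z, Real.exp (c * (dist z o / ρ)) ≤ Real.exp (c * R) * E z := by
    intro z
    rw [hE, ← Real.exp_add]
    refine Real.exp_le_exp.2 ?_
    have d1 : dist z o ≤ dist x z + R * ρ := by
      have := dist_triangle z x o
      rw [dist_comm z x] at this
      linarith
    have d2 : dist z o / ρ ≤ dist x z / ρ + R := by
      rw [div_add' _ _ _ hρ.ne', div_le_div_iff_of_pos_right hρ]
      exact d1
    have d3 : dist x z / ρ ≤ √Q * (dist x z / √s) := by
      rw [← mul_div_assoc, div_le_div_iff₀ hρ hss]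
      calc dist x z * √s ≤ dist x z * (√Q * ρ) := by gcongr
        _ = _ := by ring
    calc c * (dist z o / ρ) ≤ c * (√Q * (dist x z / √s) + R) := by gcongr; linarith
      _ = _ := by ring
  have hb1 : ∀ᵐ z ∂m, |F z| ≤ b * Real.exp (c * R) * E z := by
    filter_upwards [h2] with z hz
    refine hz.trans ?_
    rw [mul_assoc]
    exact mul_le_mul_of_nonneg_left (hexp z) hb
  have hi : Integrable (fun z => p s x z * F z) m := by
    refine (i1.const_mul (b * Real.exp (c * R))).mono' ((ph_meas hp hs x).mul hF) ?_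
    filter_upwards [hb1] with z hz
    rw [Real.norm_eq_abs, abs_mul, abs_of_nonneg (p0 z)]
    calc p s x z * |F z| ≤ p s x z * (b * Real.exp (c * R) * E z) :=
          mul_le_mul_of_nonneg_left hz (p0 z)
      _ = _ := by ring
  refine ⟨hi, ?_⟩
  have hdom : ∀ᵐ z ∂m, p s x z * |F z| ≤ p s x z * a
      + S.indicator (fun z => (b * Real.exp (c * R)) * (p s x z * E z)) z := by
    filter_upwards [h1, hb1] with z z1 z2
    by_cases hz : z ∈ S
    · rw [indicator_of_mem hz]
      have e1 : 0 ≤ p s x z * a := mul_nonneg (p0 z) ha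
      have e2 : p s x z * |F z| ≤ p s x z * (b * Real.exp (c * R) * E z) :=
        mul_le_mul_of_nonneg_left z2 (p0 z)
      nlinarith
    · rw [indicator_of_notMem hz, add_zero]
      refine mul_le_mul_of_nonneg_left (z1 ?_) (p0 z)
      have hz' : dist x z < (R₁ - R) * ρ := by
        rw [hS, mem_setOf_eq, not_le] at hz
        exact hz
      have := dist_triangle z x o
      rw [dist_comm z x] at this
      nlinarith
  have j1 : Integrable (fun z => p s x z * a) m := (hp.int s hs x).mul_const a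
  have j2 : Integrable (S.indicator fun z => (b * Real.exp (c * R)) * (p s x z * E z)) m :=
    (i1.const_mul _).indicator hSm
  have e1 : pt m p s (fun z => |F z|) x ≤
      ∫ z, (p s x z * a + S.indicator (fun z => (b * Real.exp (c * R)) * (p s x z * E z)) z) ∂m := by
    refine integral_mono_ae ?_ (j1.add j2) hdom
    refine hi.abs.congr (Eventually.of_forall fun z => ?_)
    simp only [abs_mul, abs_of_nonneg (p0 z)]
  refine e1.trans ?_
  rw [integral_add j1 j2, integral_mul_const, hp.mass s hs x, one_mul,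
    integral_indicator hSm, integral_const_mul]
  have e2 : Real.exp (-(((R₁ - R) * ρ) ^ 2 / (32 * s))) ≤
      Real.exp (-((R₁ - R) ^ 2 / (32 * Q))) := by
    refine Real.exp_le_exp.2 (neg_le_neg ?_)
    rw [div_le_div_iff₀ (by positivity) (by positivity), mul_pow]
    have : (R₁ - R) ^ 2 * (32 * s) ≤ (R₁ - R) ^ 2 * (32 * (Q * ρ ^ 2)) := by gcongr
    linarith
  have e3 : 0 ≤ b * Real.exp (c * R) := by positivity
  have e4 : ∫ z in S, p s x z * E z ∂m ≤ C * Real.exp (-((R₁ - R) ^ 2 / (32 * Q))) :=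
    i2.trans (mul_le_mul_of_nonneg_left e2 (by linarith))
  calc a + b * Real.exp (c * R) * ∫ z in S, p s x z * E z ∂m
      ≤ a + b * Real.exp (c * R) * (C * Real.exp (-((R₁ - R) ^ 2 / (32 * Q)))) := by gcongr
    _ = _ := by ring

/-- mean oscillation at a point: `∫ p_s(x,z) d(x,z) ≤ C √s` uniformly in `x`. -/
theorem mean_dist (h : Env m n K o A p) : ∃ C : ℝ, 1 ≤ C ∧ ∀ s, 0 < s → s ≤ 1 → ∀ x,
    Integrable (fun z => p s x z * dist x z) m ∧ pt m p s (fun z => dist x z) x ≤ C * √s := by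
  obtain ⟨C, hC1, hC⟩ := H751.tail_cd (H751.hyp_of h.hyp) h.ker 1 zero_le_one
  refine ⟨C, hC1, fun s hs hs1 x => ?_⟩
  have hp := h.ker
  have hss : 0 < √s := Real.sqrt_pos.2 hs
  obtain ⟨i1, i2⟩ := hC s hs hs1 x 0 le_rfl
  have p0 : ∀ z, 0 ≤ p s x z := hp.nonneg s hs x
  have hd : ∀ z, dist x z ≤ √s * Real.exp (1 * (dist x z / √s)) := by
    intro z
    have h1 : dist x z / √s + 1 ≤ Real.exp (dist x z / √s) := Real.add_one_le_exp _
    have h2 : dist x z = √s * (dist x z / √s) := by field_simp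
    rw [one_mul]
    calc dist x z = √s * (dist x z / √s) := h2
      _ ≤ √s * Real.exp (dist x z / √s) := by gcongr; linarith
  have hi : Integrable (fun z => p s x z * dist x z) m := by
    refine (i1.const_mul (√s)).mono' ((ph_meas hp hs x).mul (by fun_prop)) ?_
    refine Eventually.of_forall fun z => ?_
    rw [Real.norm_eq_abs, abs_of_nonneg (mul_nonneg (p0 z) dist_nonneg)]
    calc p s x z * dist x z ≤ p s x z * (√s * Real.exp (1 * (dist x z / √s))) :=
          mul_le_mul_of_nonneg_left (hd z) (p0 z)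
      _ = _ := by ring
  refine ⟨hi, ?_⟩
  have e0 : {w : M | 0 ≤ dist x w} = univ := by ext w; simp
  rw [e0, setIntegral_univ] at i2
  have e1 : pt m p s (fun z => dist x z) x ≤
      ∫ z, √s * (p s x z * Real.exp (1 * (dist x z / √s))) ∂m := by
    refine integral_mono hi (i1.const_mul _) fun z => ?_
    calc p s x z * dist x z ≤ p s x z * (√s * Real.exp (1 * (dist x z / √s))) :=
          mul_le_mul_of_nonneg_left (hd z) (p0 z)
      _ = _ := by ring
  refine e1.trans ?_
  rw [integral_const_mul, mul_comm]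
  refine mul_le_mul_of_nonneg_right (i2.trans ?_) hss.le
  have : Real.exp (-(0 ^ 2 / (32 * s))) = 1 := by simp
  rw [this, mul_one]

end Vale.Agent.P242.H757
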