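import Vale.Agent.P242.H757.Maps1
import Vale.Agent.P242.H744.NuC

/-! P242, A-MAPS (helper757), part 2: the height functions `f = a⁻¹ (9a²/8 - d_q²/2)₊`, their
gradient, values near `o` and Laplacian comparison. -/

set_option linter.all false

open MeasureTheory Filter Topology Set Metric
open scoped ENNReal NNReal MeasureTheory

universe u

namespace Vale.Agent.P242.H757

open Vale.Agent.P233 Vale.Agent.P233.RA Vale.Agent.P242.H71 Vale.Agent.P242.H990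
  Vale.Agent.P242.H520 Vale.Agent.P233.N2

section val

variable {M : Type u} [MetricSpace M]

/-- the height function of the point `q` at distance about `a` -/
noncomputable def fv (a : ℝ) (q z : M) : ℝ := -a⁻¹ * ww (9 / 8 * a ^ 2) q z

variable {a : ℝ} {q z : M}

theorem gg_lt_iff (ha : 0 < a) : gg q z < 9 / 8 * a ^ 2 ↔ dist z q < 3 / 2 * a := by
  unfold gg
  have h0 : 0 ≤ dist z q := dist_nonneg
  constructor
  · intro h
    nlinarith
  · intro h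
    nlinarith

theorem fv_of_lt (ha : 0 < a) (h : dist z q < 3 / 2 * a) :
    fv a q z = a⁻¹ * (9 / 8 * a ^ 2 - dist z q ^ 2 / 2) := by
  unfold fv
  rw [H982.ww_of_lt ((gg_lt_iff ha).2 h)]
  unfold gg
  ring

theorem fv_lip (ha : 0 < a) (q z z' : M) : |fv a q z - fv a q z'| ≤ 3 / 2 * dist z z' := by
  have h1 := (H982.ww_lip (δ := 9 / 8 * a ^ 2) (by positivity) q).dist_le_mul z z'
  have h2 : √(2 * (9 / 8 * a ^ 2)) = 3 / 2 * a := by
    rw [show 2 * (9 / 8 * a ^ 2) = (3 / 2 * a) ^ 2 by ring, Real.sqrt_sq (by positivity)]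
  rw [Real.dist_eq, Real.coe_toNNReal _ (Real.sqrt_nonneg _), h2] at h1
  have e : fv a q z - fv a q z' = -a⁻¹ * (ww (9 / 8 * a ^ 2) q z - ww (9 / 8 * a ^ 2) q z') := by
    unfold fv; ring
  rw [e, abs_mul, abs_neg, abs_of_pos (inv_pos.2 ha)]
  calc a⁻¹ * |ww (9 / 8 * a ^ 2) q z - ww (9 / 8 * a ^ 2) q z'|
      ≤ a⁻¹ * (3 / 2 * a * dist z z') := by gcongr
    _ = _ := by field_simp

/-- values near `o`: `f = 5a/8 + w` up to small errors, if `d_q = a - w` up to small errors. -/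
theorem fv_near (ha : 0 < a) {w e b : ℝ} (h1 : |dist q z - (a - w)| ≤ e) (h2 : |w| + e ≤ b)
    (h3 : b ≤ a / 4) : |fv a q z - (5 / 8 * a + w)| ≤ e + b ^ 2 / (2 * a) := by
  obtain ⟨w', hw'⟩ : ∃ w', w' = a - dist z q := ⟨_, rfl⟩
  rw [dist_comm q z] at h1
  have hd : dist z q = a - w' := by rw [hw']; ring
  rw [hd] at h1
  have h4 : |w' - w| ≤ e := by
    rw [show w' - w = -(a - w' - (a - w)) by ring, abs_neg]
    exact h1
  have h5 : |w'| ≤ b := by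
    have := abs_sub_abs_le_abs_sub w' w
    linarith
  have h5' := abs_le.1 h5
  have h6 : dist z q < 3 / 2 * a := by rw [hd]; linarith
  rw [fv_of_lt ha h6, hd]
  have e1 : a⁻¹ * (9 / 8 * a ^ 2 - (a - w') ^ 2 / 2) - (5 / 8 * a + w)
      = (w' - w) - w' ^ 2 / (2 * a) := by
    field_simp
    ring
  rw [e1]
  refine (abs_sub _ _).trans ?_
  have h7 : |w' ^ 2 / (2 * a)| ≤ b ^ 2 / (2 * a) := by
    rw [abs_of_nonneg (by positivity), div_le_div_iff_of_pos_right (by positivity)]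
    rw [← sq_abs w']
    exact pow_le_pow_left₀ (abs_nonneg _) h5 2
  linarith

end val

section cls

variable {M : Type u} [MetricSpace M] [MeasurableSpace M]

/-- the class of the height function -/
noncomputable def fF (m : Measure M) (a : ℝ) (q : M) : M →ₘ[m] ℝ :=
  (-a⁻¹) • cl m (ww (9 / 8 * a ^ 2) q)

variable [CompleteSpace M] [SecondCountableTopology M] [BorelSpace M] {m : Measure M} {n : ℕ}
  {K : ℝ} {o : M} {A : ℝ} {p : ℝ → M → M → ℝ} {a : ℝ} {q : M}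

theorem fF_ae (ha : 0 < a) (q : M) : ∀ᵐ z ∂m, fF m a q z = fv a q z := by
  filter_upwards [smul_ae (cl m (ww (9 / 8 * a ^ 2) q)) (-a⁻¹),
    H982.ww_ae (m := m) (δ := 9 / 8 * a ^ 2) (by positivity) q] with z h1 h2
  unfold fF fv
  rw [h1, h2]

theorem env_nsp (h : Env m n K o A p) : ∃ θ : M → ℝ, N2.RA.NSp m n K θ :=
  H992.nsp (H751.hyp_of h.hyp)

theorem fF_A (h : Env m n K o A p) (ha : 0 < a) (q : M) : fF m a q ∈ (sob m).A := by
  obtain ⟨θ, t⟩ := env_nsp h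
  exact (H751.env_gamma h).toIsDir.A_smul _ (H982.ww_A t.fin (by positivity) q)

theorem Γ_fF (h : Env m n K o A p) (ha : 0 < a) (q : M) {g : M →ₘ[m] ℝ} (hg : g ∈ (sob m).W) :
    (sob m).Γ (fF m a q) g = (-a⁻¹) • (sob m).Γ (cl m (ww (9 / 8 * a ^ 2) q)) g := by
  obtain ⟨θ, t⟩ := env_nsp h
  exact (H751.env_gamma h).smul_left _ _ (H982.ww_A t.fin (by positivity) q).1 _ hg

theorem Γ_fF_ae (h : Env m n K o A p) (ha : 0 < a) (q : M) :
    ∀ᵐ z ∂m, (sob m).Γ (fF m a q) (fF m a q) z =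
      a⁻¹ ^ 2 * (sob m).Γ (cl m (ww (9 / 8 * a ^ 2) q)) (cl m (ww (9 / 8 * a ^ 2) q)) z := by
  obtain ⟨θ, t⟩ := env_nsp h
  have hD := (H751.env_gamma h).toIsDir
  have hw := (H982.ww_A t.fin (m := m) (δ := 9 / 8 * a ^ 2) (by positivity) q).1
  have e : (sob m).Γ (fF m a q) (fF m a q) =
      (a⁻¹ ^ 2) • (sob m).Γ (cl m (ww (9 / 8 * a ^ 2) q)) (cl m (ww (9 / 8 * a ^ 2) q)) := by
    rw [Γ_fF h ha q (fF_A h ha q).1]
    unfold fF
    rw [hD.Γ_smul_right _ hw hw, smul_smul]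
    congr 1
    ring
  rw [e]
  exact smul_ae _ _

theorem fF_grad_le (h : Env m n K o A p) (ha : 0 < a) (q : M) :
    ∀ᵐ z ∂m, (sob m).Γ (fF m a q) (fF m a q) z ≤ 9 / 4 := by
  obtain ⟨θ, t⟩ := env_nsp h
  filter_upwards [Γ_fF_ae h ha q,
    H982.Γ_ww_le (m := m) t.fin (δ := 9 / 8 * a ^ 2) (by positivity) q] with z h1 h2
  rw [h1]
  calc a⁻¹ ^ 2 * (sob m).Γ (cl m (ww (9 / 8 * a ^ 2) q)) (cl m (ww (9 / 8 * a ^ 2) q)) z
      ≤ a⁻¹ ^ 2 * (2 * (9 / 8 * a ^ 2)) := by gcongr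
    _ = 9 / 4 := by field_simp; norm_num

theorem fF_grad_eq (h : Env m n K o A p) (ha : 0 < a) (q : M) :
    ∀ᵐ z ∂m, dist z q < 3 / 2 * a →
      (sob m).Γ (fF m a q) (fF m a q) z = (dist z q / a) ^ 2 := by
  obtain ⟨θ, t⟩ := env_nsp h
  filter_upwards [Γ_fF_ae h ha q,
    H992.ww_grad_eq t (δ := 9 / 8 * a ^ 2) (by positivity) q] with z h1 h2 hz
  rw [h1, h2 ((gg_lt_iff ha).2 hz)]
  unfold gg
  field_simp

/-- Laplacian comparison: `Δ f ≥ - (n+1)/a`. -/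
theorem fF_lc (h : Env m n K o A p) (ha : 0 < a) (hK : |K| * a ^ 2 ≤ 1) (q : M)
    {φ : M →ₘ[m] ℝ} (hφ : φ ∈ (sob m).W) (hφ1 : MemLp φ 1 m) (h0 : 0 ≤ φ) :
    I ((sob m).Γ (fF m a q) φ) ≤ (n + 1) / a * I φ := by
  obtain ⟨θ, t⟩ := env_nsp h
  have hδ : 0 < 9 / 8 * a ^ 2 := by positivity
  rw [Γ_fF h ha q hφ, I_smul]
  have h1 := H992.lc_all t hδ q hφ h0
  have hb : ∀ᵐ z ∂m, cl m (H992.aa n K (9 / 8 * a ^ 2) q) z * φ z ≤ (n + 1) * φ z := by
    filter_upwards [H992.aa_ae (m := m) (n := n) (K := K) (δ := 9 / 8 * a ^ 2) q,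
      nonneg_iff_ae.1 h0] with z h2 h3
    rw [h2]
    refine mul_le_mul_of_nonneg_right ?_ h3
    have h4 := (abs_le.1 (H992.abs_aa_le n K hδ.le q z)).2
    have h5 : 2 * |K| / 3 * (9 / 8 * a ^ 2) = 3 / 4 * (|K| * a ^ 2) := by ring
    linarith
  have h2 : I (cl m (H992.aa n K (9 / 8 * a ^ 2) q) * φ) ≤ (n + 1) * I φ := by
    have e : (n + 1) * I φ = I (((n : ℝ) + 1) • φ) := by rw [I_smul]
    rw [e]
    refine I_mono ?_ (mem_smul _ hφ1) (le_iff_ae.2 ?_)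
    · exact mem_mul_top (H992.aa_mem t.fin hδ.le q ∞) hφ1
    · filter_upwards [hb, mul_ae (cl m (H992.aa n K (9 / 8 * a ^ 2) q)) φ,
        smul_ae φ ((n : ℝ) + 1)] with z a1 a2 a3
      rw [a2, a3]
      exact a1
  calc -a⁻¹ * I ((sob m).Γ (cl m (ww (9 / 8 * a ^ 2) q)) φ)
      = a⁻¹ * (-I ((sob m).Γ (cl m (ww (9 / 8 * a ^ 2) q)) φ)) := by ring
    _ ≤ a⁻¹ * ((n + 1) * I φ) := by
        exact mul_le_mul_of_nonneg_left (h1.trans h2) (inv_nonneg.2 ha.le)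
    _ = _ := by ring

end cls

end Vale.Agent.P242.H757
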