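import Vale.Agent.P242.H757.Maps2
import Vale.Agent.P233.N2.H982.RH2

/-! P242, A-MAPS (helper757), part 3: two-sided Laplacian bounds from a one-sided one and a small
excess; closeness of `P_t f` and `f`. -/

set_option linter.all false

open MeasureTheory Filter Topology Set Metric
open scoped ENNReal NNReal MeasureTheory

universe u

namespace Vale.Agent.P242.H757

open Vale.Agent.P233 Vale.Agent.P233.RA Vale.Agent.P242.H71 Vale.Agent.P242.H990
  Vale.Agent.P242.H520 Vale.Agent.P233.N2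

variable {M : Type u} [MetricSpace M] [CompleteSpace M] [SecondCountableTopology M]
  [MeasurableSpace M] [BorelSpace M] {m : Measure M} {n : ℕ} {K : ℝ} {o : M} {A : ℝ}
  {p : ℝ → M → M → ℝ}

theorem env_sigma (h : Env m n K o A p) : SigmaFinite m := by
  obtain ⟨θ, t⟩ := env_nsp h
  exact sigmaFinite_of_ball t.fin

theorem env_n (h : Env m n K o A p) : (0 : ℝ) < n := by
  have := h.hyp.two_le
  exact_mod_cast (by omega : 0 < n)

theorem env_A (h : Env m n K o A p) : 1 ≤ A := h.kb.one_le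

/-- kernel bound of `Δ p_s` -/
theorem lap_bd (h : Env m n K o A p) : ∃ C : ℝ, 1 ≤ C ∧ ∀ s, 0 < s → 512 * A ^ 2 * s ≤ 1 / 2 →
    ∀ x, dist x o ≤ 1 → ∀ F : M →ₘ[m] ℝ, Integrable (fun z => p (512 * A ^ 2 * s) x z * F z) m →
    MemLp ((sob m).lap (ph m p s x) * F : M →ₘ[m] ℝ) 1 m ∧
    |I ((sob m).lap (ph m p s x) * F)| ≤
      C / s * pt m p (512 * A ^ 2 * s) (fun z => |F z|) x := by
  have := env_sigma h
  have hA := env_A h
  obtain ⟨C, hC⟩ : ∃ C, C = max 1 (cL n n K A (512 * A ^ 2) 0 * Real.exp (32 * A)) := ⟨_, rfl⟩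
  refine ⟨C, by rw [hC]; exact le_max_left _ _, fun s hs hs1 x hx F hF => ?_⟩
  have h1 := I_lap_ph_le (H751.env_gamma h) h.ker h.kb (env_n h) (H751.env_be h) (x := x) (x' := x)
    (C₀ := 0) hs le_rfl le_rfl hs1 (by simp) hF
  refine ⟨h1.1, h1.2.trans ?_⟩
  have p0 : 0 ≤ pt m p (512 * A ^ 2 * s) (fun z => |F z|) x :=
    pt_nonneg h.ker (by positivity) x (Eventually.of_forall fun z => abs_nonneg _)
  refine mul_le_mul_of_nonneg_right ?_ p0
  have c0 : 0 ≤ cL n n K A (512 * A ^ 2) 0 := by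
    unfold cL
    have := cK_pos (n := n) (A := A) (Γ := 512 * A ^ 2) (C₀ := 0) hA (by positivity)
    positivity
  have e1 : Real.exp (32 * A * dist x o) ≤ Real.exp (32 * A) := by
    refine Real.exp_le_exp.2 ?_
    nlinarith
  calc cL n n K A (512 * A ^ 2) 0 / s * Real.exp (32 * A * dist x o)
      ≤ cL n n K A (512 * A ^ 2) 0 / s * Real.exp (32 * A) := by gcongr
    _ = (cL n n K A (512 * A ^ 2) 0 * Real.exp (32 * A)) / s := by ring
    _ ≤ C / s := by
        rw [div_le_div_iff_of_pos_right hs, hC]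
        exact le_max_right _ _

/-- kernel bound of `∇ p_s` -/
theorem grad_bd (h : Env m n K o A p) : ∃ C : ℝ, 1 ≤ C ∧ ∀ s, 0 < s → 512 * A ^ 2 * s ≤ 1 / 2 →
    ∀ x, dist x o ≤ 1 → ∀ F G : M →ₘ[m] ℝ, F ∈ (sob m).W →
    Integrable (fun z => p (512 * A ^ 2 * s) x z * (|G z| * √((sob m).Γ F F z))) m →
    |I (G * (sob m).Γ (ph m p s x) F)| ≤
      C / √s * pt m p (512 * A ^ 2 * s) (fun z => |G z| * √((sob m).Γ F F z)) x := by
  have hA := env_A h
  obtain ⟨C, hC⟩ : ∃ C, C = max 1 (cD n K A (512 * A ^ 2) 0 * Real.exp (32 * A)) := ⟨_, rfl⟩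
  refine ⟨C, by rw [hC]; exact le_max_left _ _, fun s hs hs1 x hx F G hF hi => ?_⟩
  have h1 := (I_mul_Γ_ph_le (H751.env_gamma h) h.ker h.kb (H751.env_bei h) (x := x) (x' := x)
    (C₀ := 0) hs le_rfl le_rfl hs1 (by simp) hF hi).2
  refine h1.trans ?_
  have p0 : 0 ≤ pt m p (512 * A ^ 2 * s) (fun z => |G z| * √((sob m).Γ F F z)) x :=
    pt_nonneg h.ker (by positivity) x (Eventually.of_forall fun z => by positivity)
  refine mul_le_mul_of_nonneg_right ?_ p0
  have c0 : 0 ≤ cD n K A (512 * A ^ 2) 0 := by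
    unfold cD
    have := cK_pos (n := n) (A := A) (Γ := 512 * A ^ 2) (C₀ := 0) hA (by positivity)
    positivity
  have e1 : Real.exp (32 * A * dist x o) ≤ Real.exp (32 * A) := by
    refine Real.exp_le_exp.2 ?_
    nlinarith
  calc cD n K A (512 * A ^ 2) 0 / √s * Real.exp (32 * A * dist x o)
      ≤ cD n K A (512 * A ^ 2) 0 / √s * Real.exp (32 * A) := by gcongr
    _ = (cD n K A (512 * A ^ 2) 0 * Real.exp (32 * A)) / √s := by ring
    _ ≤ C / √s := by
        rw [div_le_div_iff_of_pos_right (Real.sqrt_pos.2 hs), hC]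
        exact le_max_right _ _

/-- the Laplacian of the heat kernel has mean zero -/
theorem I_lap_ph (h : Env m n K o A p) {s : ℝ} (hs : 0 < s) (hs1 : 512 * A ^ 2 * s ≤ 1 / 2)
    {x : M} (hx : dist x o ≤ 1) :
    MemLp ((sob m).lap (ph m p s x)) 1 m ∧ I ((sob m).lap (ph m p s x)) = 0 := by
  have hD := (H751.env_gamma h).toIsDir
  have hp := h.ker
  have hA := env_A h
  obtain ⟨C, hC1, hC⟩ := lap_bd h
  have hs' : 0 < 512 * A ^ 2 * s := by positivity
  have h1 := (hC s hs hs1 x hx 1 ((hp.int _ hs' x).congr (by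
    filter_upwards [one_ae (M := M) (m := m)] with z hz
    rw [hz, mul_one]))).1
  rw [mul_one] at h1
  refine ⟨h1, H982.I_lap_zero hD (fun t ht => ?_) (ph_isLap hD hp hs x) (ph_mem1 hp hs x) h1⟩
  rw [P_ph hD hp ht hs x, I_ph hp hs x, I_ph hp (by linarith) x]

/-- one-sided Laplacian bound tested with the heat kernel -/
theorem lap_ge (h : Env m n K o A p) {s : ℝ} (hs : 0 < s) (x : M) {f : M →ₘ[m] ℝ} {κ : ℝ}
    (hf : f ∈ (sob m).W)
    (h1 : ∀ φ ∈ (sob m).W, MemLp φ 1 m → 0 ≤ φ → I ((sob m).Γ f φ) ≤ κ * I φ) :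
    -κ ≤ I ((sob m).lap (ph m p s x) * f) := by
  have hD := (H751.env_gamma h).toIsDir
  have hp := h.ker
  have hφ := ph_mem hD hp hs x
  have e1 := I_Γ_ph hD hp hs x hf
  have e2 := h1 _ hφ (ph_mem1 hp hs x) (ph_nonneg hp hs x)
  rw [hD.symm _ hf _ hφ, e1, I_ph hp hs x] at e2
  linarith

/-- two-sided Laplacian bound from the excess -/
theorem lap_le (h : Env m n K o A p) {s : ℝ} (hs : 0 < s) (hs1 : 512 * A ^ 2 * s ≤ 1 / 2)
    {x : M} (hx : dist x o ≤ 1) {f f' : M →ₘ[m] ℝ} {κ c : ℝ}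
    (hf : f ∈ (sob m).W) (hf' : f' ∈ (sob m).W)
    (h2 : ∀ φ ∈ (sob m).W, MemLp φ 1 m → 0 ≤ φ → I ((sob m).Γ f' φ) ≤ κ * I φ) :
    I ((sob m).lap (ph m p s x) * f) ≤
      κ + I ((sob m).lap (ph m p s x) * (f + f' - c • (1 : M →ₘ[m] ℝ))) := by
  have hD := (H751.env_gamma h).toIsDir
  have hp := h.ker
  have a1 := lap_ge h hs x hf' h2
  obtain ⟨b1, b2⟩ := I_lap_ph h hs hs1 hx
  have l2 := ph_lap_mem2 hD hp hs x
  have e1 : (sob m).lap (ph m p s x) * (f + f' - c • (1 : M →ₘ[m] ℝ))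
      = ((sob m).lap (ph m p s x) * f + (sob m).lap (ph m p s x) * f')
        - c • (sob m).lap (ph m p s x) := by
    rw [mul_sub, mul_add, mul_smul_comm, mul_one]
  rw [e1, I_sub (mem_add (mem_mul_22 l2 (hD.memLp _ hf)) (mem_mul_22 l2 (hD.memLp _ hf')))
    (mem_smul _ b1), I_add (mem_mul_22 l2 (hD.memLp _ hf)) (mem_mul_22 l2 (hD.memLp _ hf')),
    I_smul, b2]
  linarith

/-- `|P_t f - f| ≤ L C √t` for `L`-Lipschitz functions -/
theorem PP_lip (h : Env m n K o A p) : ∃ C : ℝ, 1 ≤ C ∧ ∀ s, 0 < s → s ≤ 1 → ∀ x,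
    ∀ (f : M →ₘ[m] ℝ) (v : M → ℝ) (L : ℝ), 0 ≤ L → MemLp f 2 m → (∀ᵐ z ∂m, f z = v z) →
    (∀ z z', |v z - v z'| ≤ L * dist z z') → |PP m p s x f - v x| ≤ L * (C * √s) := by
  obtain ⟨C, hC1, hC⟩ := mean_dist h
  refine ⟨C, hC1, fun s hs hs1 x f v L hL0' hf hv hL => ?_⟩
  have hp := h.ker
  obtain ⟨i1, i2⟩ := hC s hs hs1 x
  have p0 : ∀ z, 0 ≤ p s x z := hp.nonneg s hs x
  rw [H751.PP_eq_pt hp hs x f]
  have e1 : pt m p s f x - v x = ∫ z, p s x z * (f z - v x) ∂m := by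
    have e2 : ∀ z, p s x z * (f z - v x) = p s x z * f z - p s x z * v x := fun z => by ring
    simp_rw [e2]
    rw [integral_sub (pt_int hp hs x hf) ((hp.int s hs x).mul_const _), integral_mul_const,
      hp.mass s hs x, one_mul]
    rfl
  rw [e1]
  refine (abs_integral_le_integral_abs).trans ?_
  have e3 : ∫ z, |p s x z * (f z - v x)| ∂m ≤ ∫ z, L * (p s x z * dist x z) ∂m := by
    refine integral_mono_of_nonneg (Eventually.of_forall fun z => abs_nonneg _)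
      (i1.const_mul L) ?_
    filter_upwards [hv] with z hz
    rw [abs_mul, abs_of_nonneg (p0 z), hz]
    have := hL z x
    rw [dist_comm z x] at this
    nlinarith [p0 z]
  refine e3.trans ?_
  rw [integral_const_mul]
  exact mul_le_mul_of_nonneg_left i2 hL0'

/-- monotonicity in time: `P_t f(x) ≥ f(x) - κ t` -/
theorem PP_ge (h : Env m n K o A p) {t : ℝ} (ht : 0 < t) (x : M) {f : M →ₘ[m] ℝ} {κ L : ℝ}
    {v : M → ℝ} (hf : f ∈ (sob m).W) (hv : ∀ᵐ z ∂m, f z = v z) (hL0 : 0 ≤ L)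
    (hL : ∀ z z', |v z - v z'| ≤ L * dist z z')
    (h1 : ∀ φ ∈ (sob m).W, MemLp φ 1 m → 0 ≤ φ → I ((sob m).Γ f φ) ≤ κ * I φ) :
    v x - κ * t ≤ PP m p t x f := by
  have hD := (H751.env_gamma h).toIsDir
  have hp := h.ker
  have hf2 := hD.memLp _ hf
  obtain ⟨C, hC1, hC⟩ := PP_lip h
  set g : ℝ → ℝ := fun s => PP m p s x f + κ * s with hg
  have hd : ∀ s, 0 < s → HasDerivAt g (I ((sob m).lap (ph m p s x) * f) + κ) s := by
    intro s hs
    have h2 := (hasDerivAt_ph hD hp hs x hf2).fun_add ((hasDerivAt_id s).const_mul κ)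
    simpa [hg, PP] using h2
  have hmono : MonotoneOn g (Ioi 0) := by
    refine monotoneOn_of_deriv_nonneg (convex_Ioi 0) (fun s hs => (hd s hs).continuousAt.continuousWithinAt)
      (fun s hs => ?_) (fun s hs => ?_)
    · rw [interior_Ioi] at hs
      exact (hd s hs).differentiableAt.differentiableWithinAt
    · rw [interior_Ioi] at hs
      rw [(hd s hs).deriv]
      linarith [lap_ge h hs x hf h1]
  have hlim : Tendsto g (𝓝[>] 0) (𝓝 (v x)) := by
    have t1 : Tendsto (fun s : ℝ => L * (C * √s) + |κ| * s) (𝓝[>] 0) (𝓝 0) := by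
      have : Continuous fun s : ℝ => L * (C * √s) + |κ| * s := by fun_prop
      have h2 := (this.tendsto 0).mono_left (nhdsWithin_le_nhds (s := Ioi 0))
      simpa using h2
    rw [tendsto_iff_dist_tendsto_zero]
    refine squeeze_zero' (Eventually.of_forall fun s => dist_nonneg) ?_ t1
    have h3 : ∀ᶠ s : ℝ in 𝓝[>] 0, s ≤ 1 :=
      (eventually_le_nhds (show (0 : ℝ) < 1 by norm_num)).filter_mono nhdsWithin_le_nhds
    filter_upwards [self_mem_nhdsWithin, h3] with s hs hs1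
    have hs' : 0 < s := hs
    rw [Real.dist_eq]
    calc |g s - v x| = |(PP m p s x f - v x) + κ * s| := by rw [hg]; congr 1; ring
      _ ≤ |PP m p s x f - v x| + |κ * s| := abs_add_le _ _
      _ ≤ L * (C * √s) + |κ| * s := by
          rw [abs_mul, abs_of_pos hs']
          have := hC s hs' hs1 x f v L hL0 hf2 hv hL
          linarith
  have h4 : v x ≤ g t := by
    refine le_of_tendsto hlim ?_
    have h3 : ∀ᶠ s : ℝ in 𝓝[>] 0, s ≤ t :=
      (eventually_le_nhds ht).filter_mono nhdsWithin_le_nhds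
    filter_upwards [self_mem_nhdsWithin, h3] with s hs hs1
    exact hmono hs ht hs1
  have h5 : g t = PP m p t x f + κ * t := rfl
  linarith

/-- two-sided closeness of `P_t f` and `f` from the excess -/
theorem PP_near (h : Env m n K o A p) {t : ℝ} (ht : 0 < t) (x : M) {f f' : M →ₘ[m] ℝ} {κ L c : ℝ}
    {v v' : M → ℝ} (hL0 : 0 ≤ L) (hf : f ∈ (sob m).W) (hv : ∀ᵐ z ∂m, f z = v z)
    (hL : ∀ z z', |v z - v z'| ≤ L * dist z z')
    (h1 : ∀ φ ∈ (sob m).W, MemLp φ 1 m → 0 ≤ φ → I ((sob m).Γ f φ) ≤ κ * I φ)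
    (hf' : f' ∈ (sob m).W) (hv' : ∀ᵐ z ∂m, f' z = v' z)
    (hL' : ∀ z z', |v' z - v' z'| ≤ L * dist z z')
    (h1' : ∀ φ ∈ (sob m).W, MemLp φ 1 m → 0 ≤ φ → I ((sob m).Γ f' φ) ≤ κ * I φ)
    {ε : ℝ} (hε : pt m p t (fun z => |(f + f' - c • (1 : M →ₘ[m] ℝ) : M →ₘ[m] ℝ) z|) x ≤ ε)
    (hε' : |v x + v' x - c| ≤ ε) (hκ : 0 ≤ κ) :
    |PP m p t x f - v x| ≤ κ * t + 2 * ε := by
  have hD := (H751.env_gamma h).toIsDir
  have hp := h.ker
  have a1 := PP_ge h ht x hf hv hL0 hL h1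
  have a2 := PP_ge h ht x hf' hv' hL0 hL' h1'
  have hf2 := hD.memLp _ hf
  have hf2' := hD.memLp _ hf'
  have φ2 := ph_mem2 hp ht x
  have φ1 := ph_mem1 hp ht x
  have e1 : PP m p t x (f + f' - c • (1 : M →ₘ[m] ℝ)) = PP m p t x f + PP m p t x f' - c := by
    unfold PP
    have e2 : ph m p t x * (f + f' - c • (1 : M →ₘ[m] ℝ))
        = (ph m p t x * f + ph m p t x * f') - c • ph m p t x := by
      rw [mul_sub, mul_add, mul_smul_comm, mul_one]
    rw [e2, I_sub (mem_add (mem_mul_22 φ2 hf2) (mem_mul_22 φ2 hf2')) (mem_smul _ φ1),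
      I_add (mem_mul_22 φ2 hf2) (mem_mul_22 φ2 hf2'), I_smul, I_ph hp ht x]
    ring
  have e3 : |PP m p t x (f + f' - c • (1 : M →ₘ[m] ℝ))| ≤ ε := by
    rw [H751.PP_eq_pt hp ht x]
    exact (abs_pt_le hp ht x _).trans hε
  rw [e1] at e3
  have e4 := abs_le.1 e3
  have e5 := abs_le.1 hε'
  have hε0 : 0 ≤ ε := (abs_nonneg _).trans hε'
  rw [abs_le]
  constructor
  · nlinarith
  · linarith

end Vale.Agent.P242.H757
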